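import Crest.Agent.R82.Cells

/-! The barycentre inequality for Laguerre cells with the same sites. -/

set_option autoImplicit false
set_option linter.unusedSectionVars false

namespace Crest.Agent.R82

open MeasureTheory Filter Set
open scoped RealInnerProductSpace Topology ENNReal

variable {E : Type*} [NormedAddCommGroup E] [InnerProductSpace ℝ E] [FiniteDimensional ℝ E]
  [MeasurableSpace E] [BorelSpace E]

lemma Good.pl_real {ρ : Measure E} {R : ℝ} (G : Good ρ R) {A B M : Set E} (hA : MeasurableSet A)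
    (hB : MeasurableSet B) (hM : MeasurableSet M) {f g W : E → ℝ} (hf : Continuous f)
    (hg : Continuous g) (hW : Continuous W) (hf0 : ∀ x, ‖x‖ ≤ R → 0 ≤ f x)
    (hg0 : ∀ x, ‖x‖ ≤ R → 0 ≤ g x) (hW0 : ∀ x, ‖x‖ ≤ R → 0 ≤ W x)
    (hmid : ∀ x ∈ A, ∀ y ∈ B, midpoint ℝ x y ∈ M)
    (h : ∀ x y, ‖x‖ ≤ R → ‖y‖ ≤ R → f x + g y ≤ 2 * W (midpoint ℝ x y)) :
    (∫ x in A, f x ∂ρ) * (∫ x in B, g x ∂ρ) ≤ (∫ x in M, W x ∂ρ) ^ 2 := by
  have key : ∀ {S : Set E} {φ : E → ℝ}, MeasurableSet S → Continuous φ →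
      (∀ x, ‖x‖ ≤ R → 0 ≤ φ x) →
      ∫⁻ x, S.indicator (fun x => ENNReal.ofReal (φ x)) x ∂ρ = ENNReal.ofReal (∫ x in S, φ x ∂ρ)
        ∧ 0 ≤ ∫ x in S, φ x ∂ρ := by
    intro S φ hS hφ h0
    have hae : 0 ≤ᵐ[ρ.restrict S] φ := ae_restrict_of_ae (G.bdd.mono fun x hx => h0 x hx)
    refine ⟨?_, integral_nonneg_of_ae hae⟩
    rw [lintegral_indicator hS, ofReal_integral_eq_lintegral_ofReal (G.integrable hφ).restrict hae]
  have hm : ∀ {S : Set E} {φ : E → ℝ}, MeasurableSet S → Continuous φ →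
      Measurable (S.indicator (fun x => ENNReal.ofReal (φ x))) := fun hS hφ =>
    hφ.measurable.ennreal_ofReal.indicator hS
  have h1 := G.pl _ _ _ (hm hA hf) (hm hB hg) (hm hM hW) (fun x y hx hy => by
    by_cases hxA : x ∈ A
    · by_cases hyB : y ∈ B
      · rw [indicator_of_mem hxA, indicator_of_mem hyB, indicator_of_mem (hmid x hxA y hyB),
          ← ENNReal.ofReal_mul (hf0 x hx)]
        have a1 := h x y hx hy
        have a2 := hf0 x hx
        have a3 := hg0 y hy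
        rw [← ENNReal.ofReal_pow (by linarith)]
        refine ENNReal.ofReal_le_ofReal ?_
        nlinarith [sq_nonneg (f x - g y)]
      · simp [indicator_of_notMem hyB]
    · simp [indicator_of_notMem hxA])
  obtain ⟨e1, p1⟩ := key hA hf hf0
  obtain ⟨e2, p2⟩ := key hB hg hg0
  obtain ⟨e3, p3⟩ := key hM hW hW0
  rw [e1, e2, e3, ← ENNReal.ofReal_mul p1, ← ENNReal.ofReal_pow p3] at h1
  exact (ENNReal.ofReal_le_ofReal_iff (sq_nonneg _)).1 h1

lemma Good.pl_sum {ρ : Measure E} {R : ℝ} (G : Good ρ R) {A B M : Set E} (hA : MeasurableSet A)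
    (hB : MeasurableSet B) (hM : MeasurableSet M) {u v W : E → ℝ} (hu : Continuous u)
    (hv : Continuous v) (hW : Continuous W) {u₀ v₀ D l : ℝ}
    (hu0 : ∀ x, ‖x‖ ≤ R → u₀ ≤ u x ∧ u x ≤ u₀ + D)
    (hv0 : ∀ x, ‖x‖ ≤ R → v₀ ≤ v x ∧ v x ≤ v₀ + D) (hD : D ≤ u₀ + v₀)
    (hW0 : ∀ x, ‖x‖ ≤ R → 0 ≤ W x)
    (hmid : ∀ x ∈ A, ∀ y ∈ B, midpoint ℝ x y ∈ M)
    (h : ∀ x y, ‖x‖ ≤ R → ‖y‖ ≤ R → u x + v y ≤ W (midpoint ℝ x y))
    (hα : 0 < ρ.real A) (hl : 0 < l) (hβ : ρ.real B = l ^ 2 * ρ.real A) :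
    l * ∫ x in A, u x ∂ρ + l⁻¹ * ∫ x in B, v x ∂ρ ≤ ∫ x in M, W x ∂ρ := by
  have := G.prob
  set α := ρ.real A with hαd
  have hβ0 : 0 < ρ.real B := by rw [hβ]; positivity
  have bd : ∀ {S : Set E} {φ : E → ℝ} {a : ℝ}, Continuous φ →
      (∀ x, ‖x‖ ≤ R → a ≤ φ x ∧ φ x ≤ a + D) →
      ρ.real S * a ≤ ∫ x in S, φ x ∂ρ ∧ ∫ x in S, φ x ∂ρ ≤ ρ.real S * (a + D) := by
    intro S φ a hφ hb
    constructor
    · have := integral_mono_ae (μ := ρ.restrict S) (integrable_const a) (G.integrable hφ).restrict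
        (ae_restrict_of_ae (G.bdd.mono fun x hx => (hb x hx).1))
      simpa using this
    · have := integral_mono_ae (μ := ρ.restrict S) (G.integrable hφ).restrict
        (integrable_const (a + D)) (ae_restrict_of_ae (G.bdd.mono fun x hx => (hb x hx).2))
      simpa using this
  obtain ⟨bu1, bu2⟩ := bd (S := A) hu hu0
  obtain ⟨bv1, bv2⟩ := bd (S := B) hv hv0
  set U := (∫ x in A, u x ∂ρ) / α with hU
  set V := (∫ x in B, v x ∂ρ) / ρ.real B with hV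
  have hU' : ∫ x in A, u x ∂ρ = α * U := by rw [hU]; field_simp
  have hV' : ∫ x in B, v x ∂ρ = ρ.real B * V := by rw [hV]; field_simp
  rw [hU'] at bu1 bu2
  rw [hV'] at bv1 bv2
  have cu1 := le_of_mul_le_mul_left bu1 hα
  have cu2 := le_of_mul_le_mul_left bu2 hα
  have cv1 := le_of_mul_le_mul_left bv1 hβ0
  have cv2 := le_of_mul_le_mul_left bv2 hβ0
  have h1 := G.pl_real hA hB hM (f := fun x => 2 * u x + (V - U)) (g := fun x => 2 * v x - (V - U))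
    (by fun_prop) (by fun_prop) hW (fun x hx => by linarith [(hu0 x hx).1])
    (fun x hx => by linarith [(hv0 x hx).1]) hW0 hmid (fun x y hx hy => by linarith [h x y hx hy])
  rw [integral_add ((G.integrable hu).restrict.const_mul 2) (integrable_const _),
    integral_sub ((G.integrable hv).restrict.const_mul 2) (integrable_const _),
    integral_const_mul, integral_const_mul, setIntegral_const, setIntegral_const, hU', hV', hβ,
    smul_eq_mul, smul_eq_mul, ← hαd] at h1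
  have h2 : (l * α * (U + V)) ^ 2 ≤ (∫ x in M, W x ∂ρ) ^ 2 := by
    refine le_trans (le_of_eq ?_) h1; ring
  have h3 : 0 ≤ ∫ x in M, W x ∂ρ :=
    integral_nonneg_of_ae (ae_restrict_of_ae (G.bdd.mono fun x hx => hW0 x hx))
  have h4 := (abs_le_of_sq_le_sq' h2 h3).2
  rw [hU', hV', hβ]
  refine le_trans (le_of_eq ?_) h4
  field_simp

omit [FiniteDimensional ℝ E] [MeasurableSpace E] [BorelSpace E] in
lemma norm_midpoint_sq (x y : E) :
    ‖midpoint ℝ x y‖ ^ 2 = (‖x‖ ^ 2 + ‖y‖ ^ 2) / 2 - ‖x - y‖ ^ 2 / 4 := by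
  rw [midpoint_eq_smul_add, norm_smul, mul_pow, norm_add_sq_real, norm_sub_sq_real]
  simp only [invOf_eq_inv, norm_inv, Real.norm_ofNat]
  ring

/-- the one-cell inequality -/
lemma Good.one_cell {ρ : Measure E} {R : ℝ} (G : Good ρ R) {A B M : Set E} (hA : MeasurableSet A)
    (hB : MeasurableSet B) (hM : MeasurableSet M) (hmid : ∀ x ∈ A, ∀ y ∈ B, midpoint ℝ x y ∈ M)
    {l : ℝ} (hα : 0 < ρ.real A) (hl1 : 1 / 2 ≤ l) (hl2 : l ≤ 3 / 2)
    (hβ : ρ.real B = l ^ 2 * ρ.real A) (η : E) (hη : ‖η‖ ≤ R) :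
    (∫ x in A, (16 * R ^ 2 - ‖x‖ ^ 2) ∂ρ) / 2 + (∫ x in B, (16 * R ^ 2 - ‖x‖ ^ 2) ∂ρ) / 2
      + l * ⟪∫ x in A, x ∂ρ, η⟫ - l⁻¹ * ⟪∫ x in B, x ∂ρ, η⟫
      - l * ρ.real A * (18 * R ^ 2 * (l - 1) ^ 2 + 2 * ‖η‖ ^ 2)
      ≤ ∫ x in M, (16 * R ^ 2 - ‖x‖ ^ 2) ∂ρ := by
  have := G.prob
  have hR : 0 < R := lt_of_lt_of_le one_pos G.one_le
  have hl : 0 < l := by linarith
  set e := 9 * R ^ 2 * (l - 1) ^ 2 + ‖η‖ ^ 2 with he
  set W : E → ℝ := fun x => 16 * R ^ 2 - ‖x‖ ^ 2 with hW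
  have hWc : Continuous W := by fun_prop
  have hWb : ∀ x, ‖x‖ ≤ R → 15 * R ^ 2 ≤ W x ∧ W x ≤ 16 * R ^ 2 := fun x hx => by
    have := pow_le_pow_left₀ (norm_nonneg x) hx 2
    have := sq_nonneg ‖x‖
    simp only [hW]; constructor <;> linarith
  have hin : ∀ x : E, ‖x‖ ≤ R → |⟪x, η⟫| ≤ R ^ 2 := fun x hx =>
    (abs_real_inner_le_norm x η).trans (by
      rw [sq]; exact mul_le_mul hx hη (norm_nonneg _) hR.le)
  set m := l⁻¹ with hm
  have hml : m * l = 1 := by rw [hm]; field_simp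
  have hm0 : 0 < m := by positivity
  have hm2 : m ≤ 2 := by rw [hm, inv_le_comm₀ hl two_pos]; linarith
  have hsum : 2 ≤ m + l := by nlinarith [sq_nonneg (l - 1), mul_nonneg hm0.le (sq_nonneg (l - 1))]
  have hR2 : 0 < R ^ 2 := by positivity
  have he2 : e ≤ 4 * R ^ 2 := by
    have a1 : (l - 1) ^ 2 ≤ 1 / 4 := by nlinarith
    have a2 := pow_le_pow_left₀ (norm_nonneg η) hη 2
    nlinarith
  have h1 := G.pl_sum hA hB hM (u := fun x => m / 2 * W x + (⟪x, η⟫ - e))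
    (v := fun x => l / 2 * W x + (⟪x, -η⟫ - e)) (W := W) (by fun_prop) (by fun_prop) hWc
    (u₀ := m / 2 * (15 * R ^ 2) - R ^ 2 - e) (v₀ := l / 2 * (15 * R ^ 2) - R ^ 2 - e)
    (D := 3 * R ^ 2) (l := l)
    (fun x hx => by
      obtain ⟨a1, a2⟩ := hWb x hx
      obtain ⟨a3, a4⟩ := abs_le.1 (hin x hx)
      constructor <;> nlinarith)
    (fun x hx => by
      obtain ⟨a1, a2⟩ := hWb x hx
      obtain ⟨a3, a4⟩ := abs_le.1 (hin x hx)
      rw [inner_neg_right]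
      constructor <;> nlinarith)
    (by nlinarith) (fun x hx => by linarith [(hWb x hx).1]) hmid
    (fun x y hx hy => by
      obtain ⟨a1, a2⟩ := hWb x hx
      have b0 : W (midpoint ℝ x y) = (W x + W y) / 2 + ‖x - y‖ ^ 2 / 4 := by
        simp only [hW]; rw [norm_midpoint_sq]; ring
      have b1 : |W y - W x| ≤ 2 * R * ‖x - y‖ := by
        have c1 : W y - W x = (‖x‖ - ‖y‖) * (‖x‖ + ‖y‖) := by simp only [hW]; ring
        rw [c1, abs_mul, abs_of_nonneg (by positivity : 0 ≤ ‖x‖ + ‖y‖), mul_comm]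
        exact mul_le_mul (by linarith) (abs_norm_sub_norm_le x y) (abs_nonneg _) (by positivity)
      have b2 : ⟪x, η⟫ + ⟪y, -η⟫ ≤ ‖x - y‖ * ‖η‖ := by
        have := real_inner_le_norm (x - y) η
        rw [inner_sub_left] at this
        rw [inner_neg_right]; linarith
      have b3 : (l - 1) * (W y - W x) ≤ |l - 1| * (2 * R * ‖x - y‖) := by
        refine (le_abs_self _).trans ?_
        rw [abs_mul]
        exact mul_le_mul_of_nonneg_left b1 (abs_nonneg _)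
      have b4 : (m + l - 2) * W x ≤ (2 * (l - 1) ^ 2) * (16 * R ^ 2) := by
        refine mul_le_mul ?_ a2 (by linarith) (by positivity)
        have : m + l - 2 = m * (l - 1) ^ 2 := by nlinarith
        rw [this]
        exact mul_le_mul_of_nonneg_right hm2 (sq_nonneg _)
      have b5 : |l - 1| ^ 2 = (l - 1) ^ 2 := sq_abs _
      rw [b0]
      have b6 := sq_nonneg (‖x - y‖ / 2 - (|l - 1| * R + ‖η‖))
      have b7 := sq_nonneg (|l - 1| * R - ‖η‖)
      have b8 : (|l - 1| * R) ^ 2 = R ^ 2 * (l - 1) ^ 2 := by rw [mul_pow, b5]; ring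
      nlinarith)
    hα hl hβ
  have iW : ∀ S, Integrable W (ρ.restrict S) := fun S => (G.integrable hWc).restrict
  have ia : ∀ (S : Set E) (v : E), Integrable (fun x => ⟪x, v⟫ - e) (ρ.restrict S) := fun S v =>
    (G.integrable (by fun_prop)).restrict
  rw [integral_add ((iW A).const_mul _) (ia _ _), integral_add ((iW B).const_mul _) (ia _ _),
    integral_const_mul, integral_const_mul, G.setIntegral_aff, G.setIntegral_aff, hβ,
    inner_neg_right, ← hm] at h1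
  refine le_trans (le_of_eq ?_) h1
  rw [hm, he]
  field_simp
  ring

variable {ι : Type*} [Fintype ι] [Nonempty ι]

/-- the barycentre inequality -/
lemma Good.bary {ρ : Measure E} {R : ℝ} (G : Good ρ R) {p : ι → E} (hp : Function.Injective p)
    {m m' ψ ψ' : ι → ℝ} (hb : Balanced ρ p m ψ) (hb' : Balanced ρ p m' ψ') (hm0 : ∀ k, 0 < m k)
    (hmm : ∀ k, |m' k - m k| ≤ m k / 2) (d : ι → E) (hd : ∀ k, ‖d k‖ ≤ R / 2) :
    ∑ k, ⟪mom ρ p ψ' k - mom ρ p ψ k, d k⟫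
      ≤ 28 * R ^ 2 * ∑ k, (m' k - m k) ^ 2 / m k + 8 * ∑ k, m k * ‖d k‖ ^ 2 := by
  have hR : 0 < R := lt_of_lt_of_le one_pos G.one_le
  have iW : Integrable (fun x : E => 16 * R ^ 2 - ‖x‖ ^ 2) ρ := G.integrable (by fun_prop)
  have s1 := G.integral_eq_sum hp ψ iW
  have s2 := G.integral_eq_sum hp ψ' iW
  have s3 := G.integral_eq_sum hp (fun j => (ψ j + ψ' j) / 2) iW
  have key : ∀ k, (∫ x in cell p ψ k, (16 * R ^ 2 - ‖x‖ ^ 2) ∂ρ) / 2
      + (∫ x in cell p ψ' k, (16 * R ^ 2 - ‖x‖ ^ 2) ∂ρ) / 2 + ⟪mom ρ p ψ' k - mom ρ p ψ k, d k⟫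
      ≤ ∫ x in cell p (fun j => (ψ j + ψ' j) / 2) k, (16 * R ^ 2 - ‖x‖ ^ 2) ∂ρ
        + (28 * R ^ 2 * ((m' k - m k) ^ 2 / m k) + 8 * (m k * ‖d k‖ ^ 2)) := by
    intro k
    have hmk := hm0 k
    obtain ⟨c1, c2⟩ := abs_le.1 (hmm k)
    set l := Real.sqrt (m' k / m k) with hl
    have hl0 : 0 ≤ l := Real.sqrt_nonneg _
    have hl2 : l ^ 2 = m' k / m k := Real.sq_sqrt (div_nonneg (by linarith) hmk.le)
    have hl3 : m' k = l ^ 2 * m k := by rw [hl2]; field_simp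
    have hla : 1 / 2 ≤ l := by
      refine Real.le_sqrt_of_sq_le ?_
      rw [le_div_iff₀ hmk]; linarith
    have hlb : l ≤ 3 / 2 := by
      refine Real.sqrt_le_iff.2 ⟨by norm_num, ?_⟩
      rw [div_le_iff₀ hmk]; linarith
    have hlp : 0 < l := by linarith
    have hdk := hd k
    have hη : ‖-(l • d k)‖ = l * ‖d k‖ := by
      rw [norm_neg, norm_smul, Real.norm_eq_abs, abs_of_nonneg hl0]
    have h1 := G.one_cell (measurableSet_cell p ψ k) (measurableSet_cell p ψ' k)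
      (measurableSet_cell p (fun j => (ψ j + ψ' j) / 2) k)
      (fun x hx y hy => midpoint_mem_cell hx hy) (by rw [hb k]; exact hmk) hla hlb
      (by rw [hb k, hb' k]; exact hl3) (-(l • d k)) (by rw [hη]; nlinarith [norm_nonneg (d k)])
    rw [hη, hb k, inner_neg_right, inner_neg_right, inner_smul_right, inner_smul_right] at h1
    change _ + l * -(l * ⟪mom ρ p ψ k, d k⟫) - l⁻¹ * -(l * ⟪mom ρ p ψ' k, d k⟫) - _ ≤ _ at h1
    have h2 : l⁻¹ * -(l * ⟪mom ρ p ψ' k, d k⟫) = -⟪mom ρ p ψ' k, d k⟫ := by field_simp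
    rw [h2] at h1
    rw [inner_sub_left]
    have h3 : |⟪mom ρ p ψ k, d k⟫| ≤ R * m k * ‖d k‖ := by
      refine (abs_real_inner_le_norm _ _).trans (mul_le_mul_of_nonneg_right ?_ (norm_nonneg _))
      rw [← hb k]; exact G.norm_setIntegral_le _
    have h4 : (m' k - m k) ^ 2 / m k = (l ^ 2 - 1) ^ 2 * m k := by
      rw [hl3]; field_simp
    rw [h4]
    have h5 : (l ^ 2 - 1) * ⟪mom ρ p ψ k, d k⟫ ≤ |l ^ 2 - 1| * (R * m k * ‖d k‖) := by
      refine (le_abs_self _).trans ?_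
      rw [abs_mul]
      exact mul_le_mul_of_nonneg_left h3 (abs_nonneg _)
    have h6 : |l ^ 2 - 1| * (R * m k * ‖d k‖)
        ≤ m k * (R ^ 2 * (l ^ 2 - 1) ^ 2 + ‖d k‖ ^ 2) := by
      have a1 := sq_nonneg (|l ^ 2 - 1| * R - ‖d k‖)
      have a2 : (|l ^ 2 - 1| * R) ^ 2 = R ^ 2 * (l ^ 2 - 1) ^ 2 := by rw [mul_pow, sq_abs]; ring
      have a3 : |l ^ 2 - 1| * R * ‖d k‖ ≤ R ^ 2 * (l ^ 2 - 1) ^ 2 + ‖d k‖ ^ 2 := by
        nlinarith [sq_nonneg (R * (l ^ 2 - 1)), sq_nonneg ‖d k‖]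
      calc _ = m k * (|l ^ 2 - 1| * R * ‖d k‖) := by ring
        _ ≤ _ := mul_le_mul_of_nonneg_left a3 hmk.le
    have h7 : l * (18 * R ^ 2 * (l - 1) ^ 2 + 2 * (l * ‖d k‖) ^ 2)
        ≤ 27 * R ^ 2 * (l ^ 2 - 1) ^ 2 + 7 * ‖d k‖ ^ 2 := by
      have a1 : (l - 1) ^ 2 ≤ (l ^ 2 - 1) ^ 2 := by
        have : (l ^ 2 - 1) ^ 2 = (l - 1) ^ 2 * (l + 1) ^ 2 := by ring
        rw [this]
        exact le_mul_of_one_le_right (sq_nonneg _) (by nlinarith)
      have a2 : l * (l - 1) ^ 2 ≤ 3 / 2 * (l ^ 2 - 1) ^ 2 :=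
        mul_le_mul hlb a1 (sq_nonneg _) (by norm_num)
      have a3 : l ^ 3 ≤ (3 / 2) ^ 3 := pow_le_pow_left₀ hl0 hlb 3
      have a4 := mul_le_mul_of_nonneg_left a2 (sq_nonneg R)
      have a5 := mul_le_mul_of_nonneg_right a3 (sq_nonneg ‖d k‖)
      nlinarith [sq_nonneg ‖d k‖]
    have h8 := mul_le_mul_of_nonneg_left h7 hmk.le
    nlinarith
  have := Finset.sum_le_sum fun k (_ : k ∈ Finset.univ) => key k
  simp only [Finset.sum_add_distrib, ← Finset.sum_div, ← Finset.mul_sum, ← s1, ← s2, ← s3] at this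
  linarith

end Crest.Agent.R82
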