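import Mathlib

/-! Semi-discrete quadratic transport: Laguerre cells, balanced weights. -/

set_option autoImplicit false
set_option linter.unusedSectionVars false

namespace Crest.Agent.R82

open MeasureTheory Filter Set
open scoped RealInnerProductSpace Topology ENNReal

variable {E : Type*} [NormedAddCommGroup E] [InnerProductSpace ℝ E] [FiniteDimensional ℝ E]
  [MeasurableSpace E] [BorelSpace E]

/-- A probability measure on the ball of radius `R` that vanishes on hyperplanes and satisfies the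
midpoint Prékopa–Leindler inequality. -/
structure Good (ρ : Measure E) (R : ℝ) : Prop where
  prob : IsProbabilityMeasure ρ
  one_le : 1 ≤ R
  bdd : ∀ᵐ x ∂ρ, ‖x‖ ≤ R
  hyper : ∀ v : E, v ≠ 0 → ∀ c : ℝ, ρ {x | ⟪x, v⟫ = c} = 0
  pl : ∀ f g h : E → ℝ≥0∞, Measurable f → Measurable g → Measurable h →
    (∀ x y, ‖x‖ ≤ R → ‖y‖ ≤ R → f x * g y ≤ h (midpoint ℝ x y) ^ 2) →
    (∫⁻ x, f x ∂ρ) * (∫⁻ x, g x ∂ρ) ≤ (∫⁻ x, h x ∂ρ) ^ 2

lemma Good.integrable {ρ : Measure E} {R : ℝ} (G : Good ρ R) {F : Type*} [NormedAddCommGroup F]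
    {g : E → F} (hg : Continuous g) : Integrable g ρ := by
  have := G.prob
  have h1 : ρ.restrict (Metric.closedBall 0 R) = ρ :=
    Measure.restrict_eq_self_of_ae_mem (by simpa using G.bdd)
  rw [← h1]
  exact hg.continuousOn.integrableOn_compact (isCompact_closedBall 0 R)

variable {ι : Type*} [Fintype ι] [Nonempty ι]

/-- the affine piece of index `k` -/
def aff (p : ι → E) (ψ : ι → ℝ) (k : ι) (x : E) : ℝ := ⟪x, p k⟫ - ψ k

/-- the piecewise affine potential -/
noncomputable def pot (p : ι → E) (ψ : ι → ℝ) (x : E) : ℝ :=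
  Finset.univ.sup' Finset.univ_nonempty fun k => aff p ψ k x

/-- the Laguerre cell -/
def cell (p : ι → E) (ψ : ι → ℝ) (k : ι) : Set E := {x | ∀ j, aff p ψ j x ≤ aff p ψ k x}

/-- first moment of a cell -/
noncomputable def mom (ρ : Measure E) (p : ι → E) (ψ : ι → ℝ) (k : ι) : E :=
  ∫ x in cell p ψ k, x ∂ρ

/-- the dual functional -/
noncomputable def dual (ρ : Measure E) (p : ι → E) (m ψ : ι → ℝ) : ℝ :=
  ∫ x, pot p ψ x ∂ρ + ∑ k, m k * ψ k

/-- the cells have the prescribed masses -/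
def Balanced (ρ : Measure E) (p : ι → E) (m ψ : ι → ℝ) : Prop :=
  ∀ k, ρ.real (cell p ψ k) = m k

section basic
omit [FiniteDimensional ℝ E] [MeasurableSpace E] [BorelSpace E]

omit [Fintype ι] [Nonempty ι] in
lemma continuous_aff (p : ι → E) (ψ : ι → ℝ) (k : ι) : Continuous (aff p ψ k) := by
  unfold aff; fun_prop

lemma continuous_pot (p : ι → E) (ψ : ι → ℝ) : Continuous (pot p ψ) :=
  Continuous.finset_sup'_apply _ fun k _ => continuous_aff p ψ k

lemma aff_le_pot (p : ι → E) (ψ : ι → ℝ) (k : ι) (x : E) : aff p ψ k x ≤ pot p ψ x :=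
  Finset.le_sup' (fun k => aff p ψ k x) (Finset.mem_univ k)

lemma pot_le {p : ι → E} {ψ : ι → ℝ} {x : E} {c : ℝ} (h : ∀ k, aff p ψ k x ≤ c) :
    pot p ψ x ≤ c := Finset.sup'_le _ _ fun k _ => h k

lemma exists_mem_cell (p : ι → E) (ψ : ι → ℝ) (x : E) : ∃ k, x ∈ cell p ψ k := by
  obtain ⟨k, -, hk⟩ := Finset.exists_mem_eq_sup' Finset.univ_nonempty fun k => aff p ψ k x
  exact ⟨k, fun j => (aff_le_pot p ψ j x).trans (le_of_eq hk)⟩

lemma pot_eq_of_mem {p : ι → E} {ψ : ι → ℝ} {k : ι} {x : E} (h : x ∈ cell p ψ k) :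
    pot p ψ x = aff p ψ k x := le_antisymm (pot_le h) (aff_le_pot p ψ k x)

omit [Fintype ι] [Nonempty ι] in
lemma isClosed_cell (p : ι → E) (ψ : ι → ℝ) (k : ι) : IsClosed (cell p ψ k) := by
  have : cell p ψ k = ⋂ j, {x | aff p ψ j x ≤ aff p ψ k x} := by
    ext x; simp [cell]
  rw [this]
  exact isClosed_iInter fun j => isClosed_le (continuous_aff _ _ _) (continuous_aff _ _ _)

lemma iUnion_cell (p : ι → E) (ψ : ι → ℝ) : ⋃ k, cell p ψ k = univ :=
  eq_univ_of_forall fun x => mem_iUnion.2 (exists_mem_cell p ψ x)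

lemma pot_le_pot_add {p : ι → E} {ψ ψ' : ι → ℝ} {c : ℝ} (h : ∀ k, ψ' k - ψ k ≤ c) (x : E) :
    pot p ψ x ≤ pot p ψ' x + c :=
  pot_le fun k => by
    have := aff_le_pot p ψ' k x
    have := h k
    unfold aff at *; linarith

lemma pot_add_const (p : ι → E) (ψ : ι → ℝ) (c : ℝ) (x : E) :
    pot p (fun k => ψ k + c) x = pot p ψ x - c := by
  have h1 := pot_le_pot_add (p := p) (ψ := fun k => ψ k + c) (ψ' := ψ) (c := -c)
    (fun k => by simp) x
  have h2 := pot_le_pot_add (p := p) (ψ := ψ) (ψ' := fun k => ψ k + c) (c := c)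
    (fun k => by simp) x
  linarith

omit [Fintype ι] [Nonempty ι] in
lemma midpoint_mem_cell {p : ι → E} {ψ ψ' : ι → ℝ} {k : ι} {x y : E} (hx : x ∈ cell p ψ k)
    (hy : y ∈ cell p ψ' k) : midpoint ℝ x y ∈ cell p (fun j => (ψ j + ψ' j) / 2) k := by
  intro j
  have h1 := hx j
  have h2 := hy j
  simp only [aff, midpoint_eq_smul_add, inner_smul_left, inner_add_left, conj_trivial,
    invOf_eq_inv] at *
  linarith

lemma convex_pot (p : ι → E) (ψ : ι → ℝ) (x v : E) :
    2 * pot p ψ x ≤ pot p ψ (x + v) + pot p ψ (x - v) := by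
  obtain ⟨k, hk⟩ := exists_mem_cell p ψ x
  have h1 := aff_le_pot p ψ k (x + v)
  have h2 := aff_le_pot p ψ k (x - v)
  rw [pot_eq_of_mem hk]
  simp only [aff, inner_add_left, inner_sub_left] at *
  linarith

lemma pot_lip {p : ι → E} (ψ : ι → ℝ) {L : ℝ} (hL : ∀ k, ‖p k‖ ≤ L) (x y : E) :
    pot p ψ x ≤ pot p ψ y + L * ‖x - y‖ :=
  pot_le fun k => by
    have h1 := aff_le_pot p ψ k y
    have h2 := real_inner_le_norm (x - y) (p k)
    have h3 := mul_le_mul_of_nonneg_left (hL k) (norm_nonneg (x - y))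
    simp only [aff, inner_sub_left] at *
    linarith

end basic

omit [FiniteDimensional ℝ E] [Fintype ι] [Nonempty ι] in
lemma measurableSet_cell (p : ι → E) (ψ : ι → ℝ) (k : ι) : MeasurableSet (cell p ψ k) :=
  (isClosed_cell p ψ k).measurableSet

omit [FiniteDimensional ℝ E] [BorelSpace E] [Fintype ι] [Nonempty ι] in
lemma Good.aedisjoint_cell {ρ : Measure E} {R : ℝ} (G : Good ρ R) {p : ι → E}
    (hp : Function.Injective p) (ψ : ι → ℝ) : Pairwise (Function.onFun (AEDisjoint ρ) (cell p ψ)) := by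
  intro i j hij
  refine measure_mono_null ?_ (G.hyper (p i - p j) (sub_ne_zero.2 fun h => hij (hp h)) (ψ i - ψ j))
  rintro x ⟨hi, hj⟩
  have h1 := hi j
  have h2 := hj i
  simp only [aff, mem_setOf_eq, inner_sub_right] at *
  linarith

omit [FiniteDimensional ℝ E] in
lemma Good.integral_eq_sum {ρ : Measure E} {R : ℝ} (G : Good ρ R) {p : ι → E}
    (hp : Function.Injective p) (ψ : ι → ℝ) {F : Type*} [NormedAddCommGroup F] [NormedSpace ℝ F]
    {g : E → F} (hg : Integrable g ρ) :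
    ∫ x, g x ∂ρ = ∑ k, ∫ x in cell p ψ k, g x ∂ρ := by
  have := integral_iUnion_ae (μ := ρ) (s := cell p ψ) (f := g)
    (fun k => (measurableSet_cell p ψ k).nullMeasurableSet) (G.aedisjoint_cell hp ψ)
    hg.integrableOn
  rwa [iUnion_cell, Measure.restrict_univ, tsum_fintype] at this

omit [FiniteDimensional ℝ E] in
lemma Good.sum_mass {ρ : Measure E} {R : ℝ} (G : Good ρ R) {p : ι → E}
    (hp : Function.Injective p) (ψ : ι → ℝ) : ∑ k, ρ.real (cell p ψ k) = 1 := by
  have := G.prob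
  have := G.integral_eq_sum hp ψ (g := fun _ => (1 : ℝ)) (integrable_const _)
  simpa using this.symm

omit [Fintype ι] [Nonempty ι] in
lemma Good.setIntegral_aff {ρ : Measure E} {R : ℝ} (G : Good ρ R) (s : Set E) (v : E) (c : ℝ) :
    ∫ x in s, (⟪x, v⟫ - c) ∂ρ = ⟪∫ x in s, x ∂ρ, v⟫ - ρ.real s * c := by
  have := G.prob
  have h1 : Integrable (fun x : E => x) (ρ.restrict s) := (G.integrable continuous_id).restrict
  rw [integral_sub (h1.inner_const v) (integrable_const c)]
  congr 1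
  · have := integral_inner (𝕜 := ℝ) h1 v
    rw [real_inner_comm, ← this]
    congr 1; ext x; exact real_inner_comm _ _
  · simp

omit [Fintype ι] [Nonempty ι] in
lemma Good.norm_setIntegral_le {ρ : Measure E} {R : ℝ} (G : Good ρ R) (s : Set E) :
    ‖∫ x in s, x ∂ρ‖ ≤ R * ρ.real s := by
  have := G.prob
  exact norm_setIntegral_le_of_norm_le_const_ae (measure_lt_top _ _) (ae_restrict_of_ae G.bdd)

/-- lower bound for the dual functional at arbitrary sites in terms of a balanced partition -/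
lemma Good.le_dual {ρ : Measure E} {R : ℝ} (G : Good ρ R) {p : ι → E}
    (hp : Function.Injective p) {m ψ : ι → ℝ} (hb : Balanced ρ p m ψ) (p' : ι → E) (ψ' : ι → ℝ) :
    ∑ k, ⟪mom ρ p ψ k, p' k⟫ ≤ dual ρ p' m ψ' := by
  rw [dual, G.integral_eq_sum hp ψ (G.integrable (continuous_pot p' ψ')), ← Finset.sum_add_distrib]
  refine Finset.sum_le_sum fun k _ => ?_
  have h1 := G.setIntegral_aff (cell p ψ k) (p' k) (ψ' k)
  have h2 : ∫ x in cell p ψ k, (⟪x, p' k⟫ - ψ' k) ∂ρ ≤ ∫ x in cell p ψ k, pot p' ψ' x ∂ρ :=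
    integral_mono (G.integrable (continuous_aff p' ψ' k)).restrict
      (G.integrable (continuous_pot p' ψ')).restrict fun x => aff_le_pot p' ψ' k x
  rw [hb k] at h1
  unfold mom
  linarith

lemma Good.dual_eq {ρ : Measure E} {R : ℝ} (G : Good ρ R) {p : ι → E}
    (hp : Function.Injective p) {m ψ : ι → ℝ} (hb : Balanced ρ p m ψ) :
    dual ρ p m ψ = ∑ k, ⟪mom ρ p ψ k, p k⟫ := by
  rw [dual, G.integral_eq_sum hp ψ (G.integrable (continuous_pot p ψ)), ← Finset.sum_add_distrib]
  refine Finset.sum_congr rfl fun k _ => ?_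
  have h1 := G.setIntegral_aff (cell p ψ k) (p k) (ψ k)
  have h2 : ∫ x in cell p ψ k, pot p ψ x ∂ρ = ∫ x in cell p ψ k, (⟪x, p k⟫ - ψ k) ∂ρ :=
    setIntegral_congr_fun (measurableSet_cell p ψ k) fun x hx => pot_eq_of_mem hx
  rw [hb k] at h1
  unfold mom
  linarith

lemma Good.dual_min {ρ : Measure E} {R : ℝ} (G : Good ρ R) {p : ι → E}
    (hp : Function.Injective p) {m ψ : ι → ℝ} (hb : Balanced ρ p m ψ) (ψ' : ι → ℝ) :
    dual ρ p m ψ ≤ dual ρ p m ψ' := by
  rw [G.dual_eq hp hb]; exact G.le_dual hp hb p ψ'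

/-- first order conditions give the masses of the cells -/
lemma Good.balanced_of_first_order [DecidableEq ι] {ρ : Measure E} {R : ℝ} (G : Good ρ R)
    {p : ι → E} (hp : Function.Injective p) {m ψ : ι → ℝ} (hm : ∑ k, m k = 1) {C : ℝ}
    (h : ∀ k, ∀ t : ℝ, 0 < t → ∫ x, pot p ψ x ∂ρ + t * m k ≤
      ∫ x, pot p (fun j => ψ j - if j = k then t else 0) x ∂ρ + C * t ^ 2) :
    Balanced ρ p m ψ := by
  have := G.prob
  have hle : ∀ k, m k ≤ ρ.real (cell p ψ k) := by
    intro k
    set S : ℕ → Set E := fun n => {x | pot p ψ x ≤ aff p ψ k x + 1 / ((n : ℝ) + 1)} with hS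
    have hSm : ∀ n, MeasurableSet (S n) := fun n =>
      (isClosed_le (continuous_pot p ψ) ((continuous_aff p ψ k).add continuous_const)).measurableSet
    have h1 : ∀ n : ℕ, m k ≤ ρ.real (S n) + C * (1 / ((n : ℝ) + 1)) := by
      intro n
      set t : ℝ := 1 / ((n : ℝ) + 1) with ht
      have ht0 : 0 < t := by positivity
      have h2 : ∫ x, pot p (fun j => ψ j - if j = k then t else 0) x ∂ρ
          ≤ ∫ x, (pot p ψ x + (S n).indicator (fun _ => t) x) ∂ρ := by
        refine integral_mono (G.integrable (continuous_pot _ _))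
          ((G.integrable (continuous_pot _ _)).add ((integrable_const t).indicator (hSm n)))
          fun x => pot_le fun j => ?_
        have h3 := aff_le_pot p ψ j x
        by_cases hx : x ∈ S n
        · rw [indicator_of_mem hx]
          unfold aff at *
          beta_reduce
          split_ifs <;> linarith
        · rw [indicator_of_notMem hx]
          have hx' : aff p ψ k x + t < pot p ψ x := not_le.1 hx
          by_cases hj : j = k
          · subst hj; unfold aff at *; simp only [if_true]; linarith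
          · unfold aff at *; simp only [hj, if_false]; linarith
      rw [integral_add (G.integrable (continuous_pot _ _)) ((integrable_const t).indicator (hSm n)),
        integral_indicator (hSm n), setIntegral_const, smul_eq_mul] at h2
      have h4 := h k t ht0
      have h5 : t * m k ≤ t * (ρ.real (S n) + C * t) := by nlinarith
      exact le_of_mul_le_mul_left h5 ht0
    have hanti : Antitone S := by
      intro a b hab x hx
      have : 1 / ((b : ℝ) + 1) ≤ 1 / ((a : ℝ) + 1) := Nat.one_div_le_one_div hab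
      simp only [hS, mem_setOf_eq] at hx ⊢
      linarith
    have hint : ⋂ n, S n = cell p ψ k := by
      ext x
      simp only [mem_iInter, hS, mem_setOf_eq]
      constructor
      · intro hx j
        refine (aff_le_pot p ψ j x).trans (le_of_forall_pos_le_add fun ε hε => ?_)
        obtain ⟨n, hn⟩ := exists_nat_one_div_lt hε
        linarith [hx n]
      · intro hx n
        rw [pot_eq_of_mem hx]
        have : (0 : ℝ) < 1 / ((n : ℝ) + 1) := by positivity
        linarith
    have ht1 := tendsto_measure_iInter_atTop (μ := ρ) (fun n => (hSm n).nullMeasurableSet) hanti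
      ⟨0, measure_ne_top _ _⟩
    rw [hint] at ht1
    have ht2 : Tendsto (fun n => ρ.real (S n)) atTop (𝓝 (ρ.real (cell p ψ k))) :=
      (ENNReal.tendsto_toReal (measure_ne_top _ _)).comp ht1
    have ht3 := ht2.add ((tendsto_one_div_add_atTop_nhds_zero_nat (𝕜 := ℝ)).const_mul C)
    simpa using ge_of_tendsto' ht3 h1
  have hs := G.sum_mass hp ψ
  intro k
  have := (Finset.sum_eq_sum_iff_of_le (s := Finset.univ) (fun k _ => hle k)).1 (by rw [hm, hs])
  exact (this k (Finset.mem_univ k)).symm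

lemma Good.continuous_dual {ρ : Measure E} {R : ℝ} (G : Good ρ R) (p : ι → E) (m : ι → ℝ) :
    Continuous (dual ρ p m) := by
  have := G.prob
  refine Continuous.add ?_ (by fun_prop)
  have : LipschitzWith 1 fun ψ : ι → ℝ => ∫ x, pot p ψ x ∂ρ := by
    refine LipschitzWith.of_le_add fun ψ ψ' => ?_
    have h1 : ∫ x, pot p ψ x ∂ρ ≤ ∫ x, (pot p ψ' x + dist ψ ψ') ∂ρ :=
      integral_mono (G.integrable (continuous_pot _ _))
        ((G.integrable (continuous_pot _ _)).add (integrable_const _))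
        (pot_le_pot_add fun k => by
          have := dist_le_pi_dist ψ' ψ k
          rw [Real.dist_eq, dist_comm] at this
          exact (le_abs_self _).trans this)
    rw [integral_add (G.integrable (continuous_pot _ _)) (integrable_const _)] at h1
    simpa using h1
  exact this.continuous

lemma Good.dual_add_const {ρ : Measure E} {R : ℝ} (G : Good ρ R) (p : ι → E) {m : ι → ℝ}
    (hm : ∑ k, m k = 1) (ψ : ι → ℝ) (c : ℝ) : dual ρ p m (fun k => ψ k + c) = dual ρ p m ψ := by
  have := G.prob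
  simp only [dual, pot_add_const, mul_add, Finset.sum_add_distrib, ← Finset.sum_mul, hm]
  rw [integral_sub (G.integrable (continuous_pot _ _)) (integrable_const _)]
  simp

/-- existence of a minimiser of the penalised dual functional, with an a priori bound -/
lemma Good.exists_min {ρ : Measure E} {R : ℝ} (G : Good ρ R) (p : ι → E) {m : ι → ℝ}
    (hm0 : ∀ k, 0 < m k) (hm : ∑ k, m k = 1) (P : (ι → ℝ) → ℝ) (hPc : Continuous P)
    (hP0 : ∀ ψ, 0 ≤ P ψ) (hP : ∀ ψ c, P (fun k => ψ k + c) = P ψ) {B : ℝ} (hB0 : 0 ≤ B)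
    (hB : ∀ k j, dual ρ p m 0 + P 0 + R * ‖p j‖ ≤ m k * B) :
    ∃ ψ, (∀ k, 0 ≤ ψ k ∧ ψ k ≤ B) ∧ ∀ ψ', dual ρ p m ψ + P ψ ≤ dual ρ p m ψ' + P ψ' := by
  have := G.prob
  obtain ⟨ψ, hψ, hmin⟩ := (isCompact_Icc (a := (0 : ι → ℝ)) (b := fun _ => B)).exists_isMinOn
    ⟨0, le_rfl, fun _ => hB0⟩ ((G.continuous_dual p m).add hPc).continuousOn
  refine ⟨ψ, fun k => ⟨hψ.1 k, hψ.2 k⟩, fun ψ' => ?_⟩
  obtain ⟨j, -, hj⟩ := Finset.exists_min_image Finset.univ ψ' Finset.univ_nonempty
  rw [← G.dual_add_const p hm ψ' (-ψ' j), ← hP ψ' (-ψ' j)]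
  set φ : ι → ℝ := fun k => ψ' k + -ψ' j with hφ
  have hφ0 : ∀ k, 0 ≤ φ k := fun k => by have := hj k (Finset.mem_univ k); simp only [hφ]; linarith
  by_cases hc : ∀ k, φ k ≤ B
  · exact hmin (a := φ) ⟨hφ0, hc⟩
  · push Not at hc
    obtain ⟨k, hk⟩ := hc
    have h0 : dual ρ p m ψ + P ψ ≤ dual ρ p m 0 + P 0 := hmin (a := 0) ⟨le_rfl, fun _ => hB0⟩
    have h1 : ∫ x, -(R * ‖p j‖) ∂ρ ≤ ∫ x, pot p φ x ∂ρ := by
      refine integral_mono_ae (integrable_const _) (G.integrable (continuous_pot _ _)) ?_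
      filter_upwards [G.bdd] with x hx
      refine le_trans ?_ (aff_le_pot p φ j x)
      have h2 := abs_real_inner_le_norm x (p j)
      have h3 := mul_le_mul_of_nonneg_right hx (norm_nonneg (p j))
      have h4 := neg_abs_le ⟪x, p j⟫
      simp only [aff, hφ]
      linarith
    have h2 : m k * φ k ≤ ∑ i, m i * φ i :=
      Finset.single_le_sum (f := fun i => m i * φ i) (fun i _ => mul_nonneg (hm0 i).le (hφ0 i))
        (Finset.mem_univ k)
    have h3 := mul_le_mul_of_nonneg_left hk.le (hm0 k).le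
    have h4 := hB k j
    have h5 := hP0 φ
    simp only [integral_const, probReal_univ, smul_eq_mul, one_mul] at h1
    have h6 : dual ρ p m φ = ∫ x, pot p φ x ∂ρ + ∑ k, m k * φ k := rfl
    linarith

omit [Nonempty ι] in
lemma exists_bound {m : ι → ℝ} (hm0 : ∀ k, 0 < m k) (a : ι → ℝ) :
    ∃ B : ℝ, 0 ≤ B ∧ ∀ k j, a j ≤ m k * B := by
  obtain ⟨B, hB⟩ := (Set.finite_range fun q : ι × ι => a q.2 / m q.1).bddAbove
  refine ⟨max B 0, le_max_right _ _, fun k j => ?_⟩
  have := hB ⟨(k, j), rfl⟩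
  have h2 : a j / m k ≤ max B 0 := this.trans (le_max_left _ _)
  rwa [div_le_iff₀' (hm0 k)] at h2

lemma sum_mul_sub_ite [DecidableEq ι] (m ψ : ι → ℝ) (k : ι) (t : ℝ) :
    ∑ j, m j * (ψ j - if j = k then t else 0) = ∑ j, m j * ψ j - t * m k := by
  simp only [mul_sub, Finset.sum_sub_distrib, mul_ite, mul_zero, Finset.sum_ite_eq',
    Finset.mem_univ, if_true]
  ring

lemma Good.exists_balanced {ρ : Measure E} {R : ℝ} (G : Good ρ R) {p : ι → E}
    (hp : Function.Injective p) {m : ι → ℝ} (hm0 : ∀ k, 0 < m k) (hm : ∑ k, m k = 1) :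
    ∃ ψ, Balanced ρ p m ψ := by
  classical
  obtain ⟨B, hB0, hB⟩ := exists_bound hm0 fun j => dual ρ p m 0 + 0 + R * ‖p j‖
  obtain ⟨ψ, -, hψ⟩ := G.exists_min p hm0 hm (fun _ => 0) continuous_const (fun _ => le_rfl)
    (fun _ _ => rfl) hB0 hB
  refine ⟨ψ, G.balanced_of_first_order hp hm (C := 0) fun k t _ => ?_⟩
  have := hψ fun j => ψ j - if j = k then t else 0
  simp only [dual, sum_mul_sub_ite] at this
  linarith

end Crest.Agent.R82
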