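import Crest.Agent.R82.Cells

/-! Competitor maps: a Monge-optimal map is an approximate subgradient of a semi-discrete
potential. -/

set_option autoImplicit false
set_option linter.unusedSectionVars false

namespace Crest.Agent.R82

open MeasureTheory Filter Set ProbabilityTheory
open scoped RealInnerProductSpace Topology ENNReal unitInterval

lemma measure_cdf_le (ν : Measure ℝ) [IsProbabilityMeasure ν] [NullSingletonClass ν] {t : ℝ} (ht0 : 0 ≤ t)
    (ht1 : t ≤ 1) : ν {x | cdf ν x ≤ t} = ENNReal.ofReal t := by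
  set S := {x | cdf ν x ≤ t} with hS
  rcases S.eq_empty_or_nonempty with h | hne
  · have : t ≤ 0 := ge_of_tendsto' (tendsto_cdf_atBot ν) fun x => by
      have : x ∉ S := by rw [h]; simp
      exact (not_le.1 this).le
    rw [h, le_antisymm this ht0]; simp
  by_cases hb : BddAbove S
  · set a := sSup S with ha
    have h1 : Iio a ⊆ S := fun x hx => by
      obtain ⟨y, hy, hxy⟩ := exists_lt_of_lt_csSup hne hx
      exact (monotone_cdf ν hxy.le).trans hy
    have h2 : S ⊆ Iic a := fun x hx => le_csSup hb hx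
    have h3 : t ≤ cdf ν a := by
      have hc : Tendsto (cdf ν) (𝓝[>] a) (𝓝 (cdf ν a)) :=
        ((cdf ν).right_continuous a).mono Ioi_subset_Ici_self
      refine ge_of_tendsto hc ?_
      filter_upwards [self_mem_nhdsWithin] with x hx
      by_contra hcon
      exact absurd (mem_Iic.1 (h2 (not_le.1 hcon).le)) (not_le.2 (mem_Ioi.1 hx))
    have h4 : ν (Iio a) ≤ ENNReal.ofReal t := by
      have := (cdf ν).measure_Iio (tendsto_cdf_atBot ν) a
      rw [measure_cdf, sub_zero] at this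
      rw [this]
      refine ENNReal.ofReal_le_ofReal (le_of_tendsto ((monotone_cdf ν).tendsto_leftLim a) ?_)
      filter_upwards [self_mem_nhdsWithin] with x hx using h1 hx
    have h5 : ν (Iio a) = ν (Iic a) := measure_congr Iio_ae_eq_Iic
    refine le_antisymm ((measure_mono h2).trans (h5 ▸ h4)) ?_
    refine le_trans ?_ (measure_mono h1)
    rw [h5, ← ofReal_cdf]
    exact ENNReal.ofReal_le_ofReal h3
  · have hu : S = univ := eq_univ_of_forall fun x => by
      obtain ⟨y, hy, hxy⟩ := not_bddAbove_iff.1 hb x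
      exact (monotone_cdf ν hxy.le).trans hy
    have : 1 ≤ t := le_of_tendsto' (tendsto_cdf_atTop ν) fun x => by
      have : x ∈ S := by rw [hu]; trivial
      exact this
    rw [hu, le_antisymm ht1 this]; simp

lemma exists_uniformize (ν : Measure ℝ) [IsProbabilityMeasure ν] [NullSingletonClass ν] :
    ∃ U : ℝ → I, Measurable U ∧ ν.map U = volume := by
  have hm : Measurable fun x => (⟨cdf ν x, cdf_nonneg ν x, cdf_le_one ν x⟩ : I) :=
    (monotone_cdf ν).measurable.subtype_mk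
  refine ⟨_, hm, Measure.ext_of_Iic _ _ fun t => ?_⟩
  rw [Measure.map_apply hm measurableSet_Iic, unitInterval.volume_Iic,
    ← measure_cdf_le ν t.2.1 t.2.2]
  rfl

variable {E : Type*} [NormedAddCommGroup E] [InnerProductSpace ℝ E] [FiniteDimensional ℝ E]
  [MeasurableSpace E] [BorelSpace E]

lemma exists_transport (τ μ : Measure E) [IsFiniteMeasure τ] (v : E)
    (hv : ∀ c : ℝ, τ {x | ⟪x, v⟫ = c} = 0) (hm : τ univ = μ univ) :
    ∃ S : E → E, Measurable S ∧ τ.map S = μ := by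
  by_cases h0 : τ univ = 0
  · refine ⟨id, measurable_id, ?_⟩
    have h1 : μ univ = 0 := hm ▸ h0
    rw [Measure.measure_univ_eq_zero.1 h0, Measure.measure_univ_eq_zero.1 h1]; simp
  set a := τ univ with ha
  have hat : a ≠ ∞ := measure_ne_top _ _
  have hl : Measurable fun x : E => ⟪x, v⟫ := by fun_prop
  have : IsProbabilityMeasure (a⁻¹ • τ) := ⟨by simp [← ha, ENNReal.inv_mul_cancel h0 hat]⟩
  have : IsProbabilityMeasure (a⁻¹ • μ) := ⟨by simp [← hm, ENNReal.inv_mul_cancel h0 hat]⟩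
  have : IsProbabilityMeasure ((a⁻¹ • τ).map fun x : E => ⟪x, v⟫) :=
    Measure.isProbabilityMeasure_map hl.aemeasurable
  have : NullSingletonClass ((a⁻¹ • τ).map fun x : E => ⟪x, v⟫) := ⟨fun c => by
    rw [Measure.map_apply hl (measurableSet_singleton c), Measure.smul_apply]
    have := hv c
    change a⁻¹ • τ {x | ⟪x, v⟫ = c} = 0
    rw [this]; simp⟩
  obtain ⟨U, hU, hUm⟩ := exists_uniformize ((a⁻¹ • τ).map fun x : E => ⟪x, v⟫)
  obtain ⟨f, hf, hfm⟩ := Measure.exists_measurable_map_eq (a⁻¹ • μ)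
  refine ⟨f ∘ U ∘ fun x => ⟪x, v⟫, hf.comp (hU.comp hl), ?_⟩
  rw [← hUm, Measure.map_map hU hl, Measure.map_map hf (hU.comp hl), Measure.map_smul] at hfm
  have := congrArg (fun m : Measure E => a • m) hfm
  simpa [smul_smul, ENNReal.mul_inv_cancel h0 hat] using this

variable {ι : Type*} [Fintype ι] [Nonempty ι]

/-- a competitor map adapted to a balanced Laguerre partition -/
lemma Good.exists_competitor [Nontrivial E] {ρ : Measure E} {R : ℝ} (G : Good ρ R) {p : ι → E}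
    (hp : Function.Injective p) {m ψ : ι → ℝ} (hb : Balanced ρ p m ψ) (μ : ι → Measure E)
    (hμ : ∀ k, μ k univ = ENNReal.ofReal (m k)) {δ : ℝ}
    (hδ : ∀ k, ∀ᵐ q ∂(μ k), ‖q - p k‖ ≤ δ) :
    ∃ S : E → E, Measurable S ∧ ρ.map S = ∑ k, μ k ∧
      ∀ᵐ x ∂ρ, ∃ k, x ∈ cell p ψ k ∧ ‖S x - p k‖ ≤ δ := by
  classical
  have := G.prob
  obtain ⟨v, hv⟩ := exists_ne (0 : E)
  obtain ⟨t, hts, hte, htm, htd⟩ := exists_subordinate_pairwise_disjoint (μ := ρ)
    (fun k => (measurableSet_cell p ψ k).nullMeasurableSet) (G.aedisjoint_cell hp ψ)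
  have hS : ∀ k, ∃ S : E → E, Measurable S ∧ (ρ.restrict (t k)).map S = μ k := fun k => by
    refine exists_transport _ _ v (fun c => ?_) ?_
    · exact le_antisymm ((Measure.restrict_apply_le _ _).trans (G.hyper v hv c).le) zero_le
    · rw [Measure.restrict_apply_univ, hμ k, ← hb k, ← measure_congr (hte k),
        ofReal_measureReal]
  choose S hSm hSe using hS
  set F : E → E := fun x => ∑ k, (t k).indicator (S k) x with hF
  have hFm : Measurable F := Finset.measurable_sum _ fun k _ => (hSm k).indicator (htm k)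
  have hFS : ∀ k, ∀ x ∈ t k, F x = S k x := fun k x hx => by
    simp only [hF]
    rw [Finset.sum_eq_single k (fun j _ hj => indicator_of_notMem
      (fun h => Set.disjoint_left.1 (htd hj) h hx) _) (by simp), indicator_of_mem hx]
  have hρ : ρ = ∑ k, ρ.restrict (t k) := by
    have h1 : (⋃ k, t k : Set E) =ᵐ[ρ] univ := by
      rw [← iUnion_cell p ψ]
      exact EventuallyEq.countable_iUnion fun k => (hte k).symm
    rw [← Measure.sum_fintype, ← Measure.restrict_iUnion htd htm, Measure.restrict_congr_set h1,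
      Measure.restrict_univ]
  have hmap : ∀ k, (ρ.restrict (t k)).map F = μ k := fun k => by
    rw [← hSe k]
    exact Measure.map_congr ((ae_restrict_mem (htm k)).mono (hFS k))
  refine ⟨F, hFm, ?_, ?_⟩
  · conv_lhs => rw [hρ]
    rw [Measure.map_finset_sum hFm.aemeasurable]
    exact Finset.sum_congr rfl fun k _ => hmap k
  · rw [hρ, ← Measure.sum_fintype, Measure.ae_sum_iff]
    intro k
    have h1 := hδ k
    rw [← hmap k] at h1
    filter_upwards [ae_of_ae_map hFm.aemeasurable h1, ae_restrict_mem (htm k)] with x hx hx'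
    exact ⟨k, hts k hx', hx⟩

omit [InnerProductSpace ℝ E] [FiniteDimensional ℝ E] in
lemma integrable_of_bdd {ρ : Measure E} [IsFiniteMeasure ρ] {f : E → ℝ} (hf : Measurable f) {C : ℝ}
    (h : ∀ᵐ x ∂ρ, |f x| ≤ C) : Integrable f ρ :=
  Integrable.of_bound hf.aestronglyMeasurable C h

lemma Good.inner_le_of_cost {ρ : Measure E} {R : ℝ} (G : Good ρ R) {S T : E → E}
    (hS : Measurable S) (hT : Measurable T) (hmap : ρ.map S = ρ.map T) {L : ℝ}
    (hL : ∀ᵐ q ∂(ρ.map T), ‖q‖ ≤ L)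
    (hc : ∫⁻ x, ‖x - T x‖ₑ ^ 2 ∂ρ ≤ ∫⁻ x, ‖x - S x‖ₑ ^ 2 ∂ρ) :
    ∫ x, ⟪x, S x⟫ ∂ρ ≤ ∫ x, ⟪x, T x⟫ ∂ρ := by
  have := G.prob
  have key : ∀ U : E → E, Measurable U → ρ.map U = ρ.map T →
      ∫⁻ x, ‖x - U x‖ₑ ^ 2 ∂ρ = ENNReal.ofReal (∫ x, ‖x - U x‖ ^ 2 ∂ρ) ∧
      0 ≤ ∫ x, ‖x - U x‖ ^ 2 ∂ρ ∧
      ∫ x, ‖x - U x‖ ^ 2 ∂ρ = ∫ x, ‖x‖ ^ 2 ∂ρ - 2 * ∫ x, ⟪x, U x⟫ ∂ρ
        + ∫ q, ‖q‖ ^ 2 ∂(ρ.map T) := by
    intro U hU hUm
    have hUL : ∀ᵐ x ∂ρ, ‖U x‖ ≤ L := ae_of_ae_map hU.aemeasurable (hUm ▸ hL)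
    have i1 : Integrable (fun x : E => ‖x‖ ^ 2) ρ := G.integrable (by fun_prop)
    have i2 : Integrable (fun x : E => ⟪x, U x⟫) ρ := by
      refine integrable_of_bdd (measurable_id.inner hU) (C := R * L) ?_
      filter_upwards [G.bdd, hUL] with x h1 h2
      exact (abs_real_inner_le_norm _ _).trans
        (mul_le_mul h1 h2 (norm_nonneg _) ((norm_nonneg _).trans h1))
    have i3 : Integrable (fun x : E => ‖U x‖ ^ 2) ρ := by
      refine integrable_of_bdd (hU.norm.pow_const 2) (C := L ^ 2) ?_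
      filter_upwards [hUL] with x h2
      rw [abs_of_nonneg (sq_nonneg _)]
      exact pow_le_pow_left₀ (norm_nonneg _) h2 2
    have e : (fun x => ‖x - U x‖ ^ 2) = fun x => ‖x‖ ^ 2 - 2 * ⟪x, U x⟫ + ‖U x‖ ^ 2 := by
      ext x; exact norm_sub_sq_real _ _
    have i4 : Integrable (fun x => ‖x - U x‖ ^ 2) ρ := by
      rw [e]; exact (i1.sub (i2.const_mul 2)).add i3
    refine ⟨?_, integral_nonneg fun x => sq_nonneg _, ?_⟩
    · rw [ofReal_integral_eq_lintegral_ofReal i4 (Eventually.of_forall fun x => sq_nonneg _)]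
      congr 1; ext x
      rw [← ofReal_norm, ENNReal.ofReal_pow (norm_nonneg _)]
    · have i5 : Integrable (fun x : E => ‖x‖ ^ 2 - 2 * ⟪x, U x⟫) ρ := i1.sub (i2.const_mul 2)
      rw [e, integral_add i5 i3, integral_sub i1 (i2.const_mul 2),
        integral_const_mul, ← hUm,
        integral_map hU.aemeasurable (by fun_prop : Continuous fun q : E => ‖q‖ ^ 2).aestronglyMeasurable]
  obtain ⟨a1, -, a3⟩ := key T hT rfl
  obtain ⟨b1, b2, b3⟩ := key S hS hmap
  rw [a1, b1, ENNReal.ofReal_le_ofReal_iff b2, a3, b3] at hc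
  linarith

/-- A Monge-optimal map is an approximate subgradient of a nearly optimal semi-discrete
potential. -/
lemma Good.approx_subgradient [Nontrivial E] {ρ : Measure E} {R : ℝ} (G : Good ρ R) {p : ι → E}
    (hp : Function.Injective p) {m : ι → ℝ} (hm0 : ∀ k, 0 < m k) (hm : ∑ k, m k = 1)
    (μ : ι → Measure E) (hμ : ∀ k, μ k univ = ENNReal.ofReal (m k)) {δ : ℝ}
    (hδ : ∀ k, ∀ᵐ q ∂(μ k), ‖q - p k‖ ≤ δ) {T : E → E} (hT : Measurable T)
    (hTμ : ρ.map T = ∑ k, μ k) {L : ℝ} (hL : ∀ᵐ q ∂(ρ.map T), ‖q‖ ≤ L)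
    (hopt : ∀ S : E → E, Measurable S → ρ.map S = ∑ k, μ k →
      ∫⁻ x, ‖x - T x‖ₑ ^ 2 ∂ρ ≤ ∫⁻ x, ‖x - S x‖ₑ ^ 2 ∂ρ)
    {ψ : ι → ℝ} {ε : ℝ} (hψ : ∀ ψ', dual ρ p m ψ ≤ dual ρ p m ψ' + ε) :
    ∃ e : E → ℝ, Integrable e ρ ∧ ∫ x, e x ∂ρ ≤ ε + (2 * R + 1) * δ ∧
      ∀ x x' : E, ‖x'‖ ≤ R + 1 → pot p ψ x + ⟪x' - x, T x⟫ - e x ≤ pot p ψ x' := by
  have := G.prob
  have hR : 0 < R := lt_of_lt_of_le one_pos G.one_le
  have hfin : ∀ k, IsFiniteMeasure (μ k) := fun k => ⟨by rw [hμ k]; exact ENNReal.ofReal_lt_top⟩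
  obtain ⟨ψb, hψb⟩ := G.exists_balanced hp hm0 hm
  obtain ⟨S, hS, hSμ, hSc⟩ := G.exists_competitor hp hψb μ hμ hδ
  have h1 := G.inner_le_of_cost hS hT (hSμ.trans hTμ.symm) hL (hopt S hS hSμ)
  have hTL : ∀ᵐ x ∂ρ, ‖T x‖ ≤ L := ae_of_ae_map hT.aemeasurable hL
  have hSL : ∀ᵐ x ∂ρ, ‖S x‖ ≤ L := ae_of_ae_map hS.aemeasurable ((hSμ.trans hTμ.symm) ▸ hL)
  have iin : ∀ U : E → E, Measurable U → (∀ᵐ x ∂ρ, ‖U x‖ ≤ L) →
      Integrable (fun x : E => ⟪x, U x⟫) ρ := fun U hU hUL => by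
    refine integrable_of_bdd (measurable_id.inner hU) (C := R * L) ?_
    filter_upwards [G.bdd, hUL] with x h1 h2
    exact (abs_real_inner_le_norm _ _).trans (mul_le_mul h1 h2 (norm_nonneg _) hR.le)
  -- the competitor nearly attains the dual value
  have h2 : dual ρ p m ψb - R * δ ≤ ∫ x, ⟪x, S x⟫ ∂ρ := by
    rw [G.dual_eq hp hψb, G.integral_eq_sum hp ψb (iin S hS hSL)]
    have e : R * δ = ∑ k, m k * (R * δ) := by rw [← Finset.sum_mul, hm, one_mul]
    rw [e, ← Finset.sum_sub_distrib]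
    refine Finset.sum_le_sum fun k _ => ?_
    have a1 := G.setIntegral_aff (cell p ψb k) (p k) (R * δ)
    rw [hψb k] at a1
    unfold mom
    rw [← a1]
    refine integral_mono_ae (G.integrable (by fun_prop)).restrict (iin S hS hSL).restrict ?_
    have hnull : ∀ᵐ x ∂ρ, ∀ j, j ≠ k → ¬(x ∈ cell p ψb j ∧ x ∈ cell p ψb k) := by
      rw [ae_all_iff]
      intro j
      by_cases hj : j = k
      · exact Eventually.of_forall fun x h => absurd hj h
      · have := measure_eq_zero_iff_ae_notMem.1 (G.aedisjoint_cell hp ψb hj)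
        exact this.mono fun x hx _ => hx
    filter_upwards [ae_restrict_mem (measurableSet_cell p ψb k), ae_restrict_of_ae G.bdd,
      ae_restrict_of_ae hSc, ae_restrict_of_ae hnull] with x hx hxR hxS hxn
    obtain ⟨j, hj, hjd⟩ := hxS
    have hjk : j = k := by
      by_contra hcon
      exact hxn j hcon ⟨hj, hx⟩
    subst hjk
    have b1 := abs_real_inner_le_norm x (S x - p j)
    have b2 := mul_le_mul hxR hjd (norm_nonneg _) hR.le
    rw [inner_sub_right] at b1
    linarith [neg_abs_le (⟪x, S x⟫ - ⟪x, p j⟫)]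
  set χ : E → ℝ := fun q => Finset.univ.inf' Finset.univ_nonempty
    fun k => ψ k + (R + 1) * ‖q - p k‖ with hχ
  have hχc : Continuous χ := Continuous.finset_inf'_apply _ fun k _ => by fun_prop
  have hχle : ∀ q k, χ q ≤ ψ k + (R + 1) * ‖q - p k‖ := fun q k =>
    Finset.inf'_le (fun k => ψ k + (R + 1) * ‖q - p k‖) (Finset.mem_univ k)
  have iχ : Integrable χ (ρ.map T) := by
    have : IsFiniteMeasure (ρ.map T) := inferInstance
    rw [← Measure.restrict_eq_self_of_ae_mem (s := Metric.closedBall 0 L) (μ := ρ.map T)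
      (by simpa using hL)]
    exact hχc.continuousOn.integrableOn_compact (isCompact_closedBall 0 L)
  have iχT : Integrable (fun x => χ (T x)) ρ := iχ.comp_measurable hT
  have h3 : ∫ x, χ (T x) ∂ρ ≤ ∑ k, m k * ψ k + (R + 1) * δ := by
    rw [← integral_map hT.aemeasurable hχc.aestronglyMeasurable]
    rw [hTμ] at iχ ⊢
    have iχk : ∀ k, Integrable χ (μ k) := fun k =>
      iχ.mono_measure (Finset.single_le_sum (f := μ) (fun i _ => bot_le) (Finset.mem_univ k))
    rw [integral_finsetSum_measure fun k _ => iχk k]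
    have e : (R + 1) * δ = ∑ k, m k * ((R + 1) * δ) := by rw [← Finset.sum_mul, hm, one_mul]
    rw [e, ← Finset.sum_add_distrib]
    refine Finset.sum_le_sum fun k _ => ?_
    have a1 : ∫ q, χ q ∂(μ k) ≤ ∫ q, (ψ k + (R + 1) * δ) ∂(μ k) := by
      refine integral_mono_ae (iχk k) (integrable_const _) ?_
      filter_upwards [hδ k] with q hq
      have := mul_le_mul_of_nonneg_left hq (show 0 ≤ R + 1 by positivity)
      linarith [hχle q k]
    rw [integral_const, measureReal_def, hμ k, ENNReal.toReal_ofReal (hm0 k).le, smul_eq_mul] at a1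
    linarith
  refine ⟨fun x => pot p ψ x + χ (T x) - ⟪x, T x⟫,
    ((G.integrable (continuous_pot p ψ)).add iχT).sub (iin T hT hTL), ?_, fun x x' hx' => ?_⟩
  · have i5 : Integrable (fun x => pot p ψ x + χ (T x)) ρ :=
      (G.integrable (continuous_pot p ψ)).add iχT
    beta_reduce
    rw [integral_sub i5 (iin T hT hTL), integral_add (G.integrable (continuous_pot p ψ)) iχT]
    have h4 := hψ ψb
    have h5 : dual ρ p m ψ = ∫ x, pot p ψ x ∂ρ + ∑ k, m k * ψ k := rfl
    linarith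
  · have : ⟪x', T x⟫ - pot p ψ x' ≤ χ (T x) := by
      refine Finset.le_inf' _ _ fun k _ => ?_
      have a1 := aff_le_pot p ψ k x'
      have a2 := real_inner_le_norm x' (T x - p k)
      have a3 := mul_le_mul_of_nonneg_right hx' (norm_nonneg (T x - p k))
      rw [inner_sub_right] at a2
      unfold aff at a1
      linarith
    rw [inner_sub_left]
    linarith

end Crest.Agent.R82
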