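import Crest.Agent.R82.Bary

/-! Lipschitz stability of semi-discrete Kantorovich potentials with respect to the sites. -/

set_option autoImplicit false
set_option linter.unusedSectionVars false

namespace Crest.Agent.R82

open MeasureTheory Filter Set
open scoped RealInnerProductSpace Topology ENNReal

variable {E : Type*} [NormedAddCommGroup E] [InnerProductSpace ℝ E] [FiniteDimensional ℝ E]
  [MeasurableSpace E] [BorelSpace E]
variable {ι : Type*} [Fintype ι] [Nonempty ι]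

/-- linear interpolation of sites -/
def interp (y z : ι → E) (t : ℝ) (k : ι) : E := y k + t • (z k - y k)

lemma interp_zero (y z : ι → E) : interp y z 0 = y := by ext k; simp [interp]

lemma interp_one (y z : ι → E) : interp y z 1 = z := by ext k; simp [interp]

lemma dual_change (ρ : Measure E) (p : ι → E) (m m' ψ : ι → ℝ) :
    dual ρ p m' ψ = dual ρ p m ψ + ∑ k, (m' k - m k) * ψ k := by
  simp only [dual, sub_mul, Finset.sum_sub_distrib]; ring

lemma Good.telescope {ρ : Measure E} {R : ℝ} (G : Good ρ R) {y z : ι → E}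
    (hinj : ∀ L l : ℕ, Function.Injective (interp y z ((l : ℝ) / L))) {m m' ψ₀ ψ₁ : ι → ℝ}
    (hm0 : ∀ k, 0 < m k) (hm : ∑ k, m k = 1) (hm' : ∑ k, m' k = 1)
    (hmm : ∀ k, |m' k - m k| ≤ m k / 2) (hb₀ : Balanced ρ y m ψ₀) (hb₁ : Balanced ρ z m' ψ₁)
    {τ : ℝ} (hτ : 0 < τ) (hτd : ∀ k, τ * ‖z k - y k‖ ≤ R / 2) :
    ∑ k, (m' k - m k) * (ψ₁ k - ψ₀ k)
      ≤ 28 * R ^ 2 * (∑ k, (m' k - m k) ^ 2 / m k) / τ + 8 * τ * ∑ k, m k * ‖z k - y k‖ ^ 2 := by
  have hR : 0 < R := lt_of_lt_of_le one_pos G.one_le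
  have hm0' : ∀ k, 0 < m' k := fun k => by
    have := (abs_le.1 (hmm k)).1; have := hm0 k; linarith
  set Λ := 28 * R ^ 2 * (∑ k, (m' k - m k) ^ 2 / m k) / τ + 8 * τ * ∑ k, m k * ‖z k - y k‖ ^ 2
    with hΛ
  have hy : Function.Injective y := by simpa [interp_zero] using hinj 1 0
  have hz : Function.Injective z := by simpa [interp_one] using hinj 1 1
  set C := ∑ k, 2 * R * m k * ‖z k - y k‖ with hC
  have main : ∀ L : ℕ, 0 < L → ∑ k, (m' k - m k) * (ψ₁ k - ψ₀ k) ≤ Λ + C * (L : ℝ)⁻¹ := by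
    intro L hL
    have hL' : (0 : ℝ) < L := Nat.cast_pos.2 hL
    set p : ℕ → ι → E := fun l => interp y z ((l : ℝ) / L) with hp
    choose a ha using fun l : ℕ => G.exists_balanced (hinj L l) hm0 hm
    choose a' ha' using fun l : ℕ => G.exists_balanced (hinj L l) hm0' hm'
    set d : ι → E := fun k => (L : ℝ)⁻¹ • (z k - y k) with hd
    have hpd : ∀ l k, p (l + 1) k = p l k + d k := fun l k => by
      simp only [hp, hd, interp]
      rw [add_assoc, ← add_smul]; congr 2; push_cast; field_simp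
    set D : ℕ → ℝ := fun l => dual ρ (p l) m' (a' l) - dual ρ (p l) m (a l)
      - ∑ k, ⟪mom ρ (p l) (a l) k, d k⟫ with hD
    have hstep : ∀ l, D (l + 1) ≤ D l + Λ * (L : ℝ)⁻¹ := fun l => by
      have h1 := G.le_dual (hinj L l) (ha l) (p (l + 1)) (a (l + 1))
      have h2 := G.dual_eq (hinj L l) (ha l)
      have h3 := G.le_dual (hinj L (l + 1)) (ha' (l + 1)) (p l) (a' l)
      have h4 := G.dual_eq (hinj L (l + 1)) (ha' (l + 1))
      have h5 := G.bary (hinj L (l + 1)) (ha (l + 1)) (ha' (l + 1)) hm0 hmm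
        (fun k => τ • (z k - y k))
        (fun k => by rw [norm_smul, Real.norm_eq_abs, abs_of_pos hτ]; exact hτd k)
      change ∑ k, ⟪mom ρ (p l) (a l) k, p (l + 1) k⟫ ≤ dual ρ (p (l + 1)) m (a (l + 1)) at h1
      change dual ρ (p l) m (a l) = ∑ k, ⟪mom ρ (p l) (a l) k, p l k⟫ at h2
      change ∑ k, ⟪mom ρ (p (l + 1)) (a' (l + 1)) k, p l k⟫ ≤ dual ρ (p l) m' (a' l) at h3
      change dual ρ (p (l + 1)) m' (a' (l + 1))
        = ∑ k, ⟪mom ρ (p (l + 1)) (a' (l + 1)) k, p (l + 1) k⟫ at h4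
      change ∑ k, ⟪mom ρ (p (l + 1)) (a' (l + 1)) k - mom ρ (p (l + 1)) (a (l + 1)) k,
        τ • (z k - y k)⟫ ≤ _ at h5
      simp only [hpd, inner_add_right, Finset.sum_add_distrib] at h1 h4
      have h6 : ∑ k, ⟪mom ρ (p (l + 1)) (a' (l + 1)) k, d k⟫
          - ∑ k, ⟪mom ρ (p (l + 1)) (a (l + 1)) k, d k⟫ ≤ Λ * (L : ℝ)⁻¹ := by
        have e1 : ∑ k, ⟪mom ρ (p (l + 1)) (a' (l + 1)) k, d k⟫
            - ∑ k, ⟪mom ρ (p (l + 1)) (a (l + 1)) k, d k⟫
            = (τ⁻¹ * ∑ k, ⟪mom ρ (p (l + 1)) (a' (l + 1)) k - mom ρ (p (l + 1)) (a (l + 1)) k,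
              τ • (z k - y k)⟫) * (L : ℝ)⁻¹ := by
          rw [← Finset.sum_sub_distrib, Finset.mul_sum, Finset.sum_mul]
          refine Finset.sum_congr rfl fun k _ => ?_
          rw [← inner_sub_left, hd, inner_smul_right, inner_smul_right]
          field_simp
        rw [e1]
        refine mul_le_mul_of_nonneg_right ?_ (by positivity)
        have e2 : ∑ k, m k * ‖τ • (z k - y k)‖ ^ 2 = τ ^ 2 * ∑ k, m k * ‖z k - y k‖ ^ 2 := by
          rw [Finset.mul_sum]
          refine Finset.sum_congr rfl fun k _ => ?_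
          rw [norm_smul, Real.norm_eq_abs, abs_of_pos hτ]; ring
        rw [e2] at h5
        refine (mul_le_mul_of_nonneg_left h5 (inv_pos.2 hτ).le).trans (le_of_eq ?_)
        rw [hΛ]; field_simp
      simp only [hD]
      linarith
    have hall : ∀ l : ℕ, D l ≤ D 0 + l * (Λ * (L : ℝ)⁻¹) := fun l => by
      induction l with
      | zero => simp
      | succ l ih => have := hstep l; push_cast; linarith
    have hL1 := hall L
    have e0 : (L : ℝ) * (Λ * (L : ℝ)⁻¹) = Λ := by field_simp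
    rw [e0] at hL1
    have p0 : p 0 = y := by simp [hp, interp_zero]
    have pL : p L = z := by simp only [hp]; rw [div_self hL'.ne', interp_one]
    have ha0 : Balanced ρ y m (a 0) := p0 ▸ ha 0
    have ha0' : Balanced ρ y m' (a' 0) := p0 ▸ ha' 0
    have haL : Balanced ρ z m (a L) := pL ▸ ha L
    have haL' : Balanced ρ z m' (a' L) := pL ▸ ha' L
    simp only [hD, p0, pL] at hL1
    have q1 := G.dual_min hy ha0' ψ₀
    have q2 := G.dual_min hy hb₀ (a 0)
    have q3 := G.dual_min hz haL ψ₁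
    have q4 := G.dual_min hz hb₁ (a' L)
    have q5 := dual_change ρ y m m' ψ₀
    have q6 := dual_change ρ z m m' ψ₁
    have q7 : ∑ k, ⟪mom ρ z (a L) k, d k⟫ - ∑ k, ⟪mom ρ y (a 0) k, d k⟫ ≤ C * (L : ℝ)⁻¹ := by
      rw [← Finset.sum_sub_distrib, hC, Finset.sum_mul]
      refine Finset.sum_le_sum fun k _ => ?_
      rw [← inner_sub_left]
      refine (real_inner_le_norm _ _).trans ?_
      have b1 : ‖mom ρ z (a L) k‖ ≤ R * m k := by rw [← haL k]; exact G.norm_setIntegral_le _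
      have b2 : ‖mom ρ y (a 0) k‖ ≤ R * m k := by rw [← ha0 k]; exact G.norm_setIntegral_le _
      have b3 := norm_sub_le (mom ρ z (a L) k) (mom ρ y (a 0) k)
      have b4 : ‖d k‖ = ‖z k - y k‖ * (L : ℝ)⁻¹ := by
        rw [hd, norm_smul, Real.norm_eq_abs, abs_of_pos (inv_pos.2 hL'), mul_comm]
      rw [b4]
      calc _ ≤ (2 * R * m k) * (‖z k - y k‖ * (L : ℝ)⁻¹) :=
            mul_le_mul_of_nonneg_right (by linarith) (by positivity)
        _ = _ := by ring
    simp only [mul_sub, Finset.sum_sub_distrib]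
    linarith
  have ht : Tendsto (fun L : ℕ => Λ + C * (L : ℝ)⁻¹) atTop (𝓝 (Λ + C * 0)) :=
    ((tendsto_inv_atTop_nhds_zero_nat (𝕜 := ℝ)).const_mul C).const_add Λ
  rw [mul_zero, add_zero] at ht
  exact ge_of_tendsto ht ((eventually_gt_atTop 0).mono main)

/-- weighted variance -/
noncomputable def var (m u : ι → ℝ) : ℝ := ∑ k, m k * (u k - ∑ j, m j * u j) ^ 2

lemma var_nonneg {m : ι → ℝ} (hm0 : ∀ k, 0 < m k) (u : ι → ℝ) : 0 ≤ var m u :=
  Finset.sum_nonneg fun k _ => mul_nonneg (hm0 k).le (sq_nonneg _)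

lemma var_eq {m : ι → ℝ} (hm : ∑ k, m k = 1) (u : ι → ℝ) :
    var m u = ∑ k, m k * u k ^ 2 - (∑ j, m j * u j) ^ 2 := by
  unfold var
  set c := ∑ j, m j * u j with hc
  have : ∀ k, m k * (u k - c) ^ 2 = m k * u k ^ 2 - 2 * c * (m k * u k) + c ^ 2 * m k :=
    fun k => by ring
  simp only [this, Finset.sum_add_distrib, Finset.sum_sub_distrib, ← Finset.mul_sum, hm, ← hc]
  ring

lemma var_add_const {m : ι → ℝ} (hm : ∑ k, m k = 1) (u : ι → ℝ) (c : ℝ) :
    var m (fun k => u k + c) = var m u := by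
  unfold var
  simp only [mul_add, Finset.sum_add_distrib, ← Finset.sum_mul, hm]
  refine Finset.sum_congr rfl fun k _ => ?_
  ring

lemma var_sub_ite [DecidableEq ι] {m : ι → ℝ} (hm : ∑ k, m k = 1) (u : ι → ℝ) (k : ι) (t : ℝ) :
    var m (fun j => u j - if j = k then t else 0)
      = var m u - 2 * t * (m k * (u k - ∑ j, m j * u j)) + t ^ 2 * (m k - m k ^ 2) := by
  rw [var_eq hm, var_eq hm, sum_mul_sub_ite]
  have : ∀ j, m j * (u j - if j = k then t else 0) ^ 2
      = m j * u j ^ 2 + if j = k then m k * (t ^ 2 - 2 * t * u k) else 0 := fun j => by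
    split_ifs with h
    · subst h; ring
    · ring
  simp only [this, Finset.sum_add_distrib, Finset.sum_ite_eq', Finset.mem_univ, if_true]
  ring

lemma Good.sq_pos_le {ρ : Measure E} {R : ℝ} (G : Good ρ R) {p : ι → E}
    (hp : Function.Injective p) {m ψ : ι → ℝ} (hb : Balanced ρ p m ψ) {g : E → ℝ}
    (hg : Continuous g) {r : ι → ℝ} (hr : ∀ k, 0 ≤ r k)
    (h : ∀ k, ∀ x ∈ cell p ψ k, ‖x‖ ≤ R → g x ≤ r k) :
    ∫ x, (max (g x) 0) ^ 2 ∂ρ ≤ ∑ k, m k * r k ^ 2 := by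
  have := G.prob
  have hi : Integrable (fun x => (max (g x) 0) ^ 2) ρ := G.integrable (by fun_prop)
  rw [G.integral_eq_sum hp ψ hi]
  refine Finset.sum_le_sum fun k _ => ?_
  have h1 : ∫ x in cell p ψ k, (max (g x) 0) ^ 2 ∂ρ ≤ ∫ x in cell p ψ k, r k ^ 2 ∂ρ := by
    refine integral_mono_ae hi.restrict (integrable_const _) ?_
    filter_upwards [ae_restrict_mem (measurableSet_cell p ψ k), ae_restrict_of_ae G.bdd]
      with x hx hx'
    exact pow_le_pow_left₀ (le_max_right _ _) (max_le (h k x hx hx') (hr k)) 2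
  rwa [setIntegral_const, hb k, smul_eq_mul] at h1

/-- Lipschitz stability of the potentials. -/
theorem Good.stability {ρ : Measure E} {R : ℝ} (G : Good ρ R) {y z : ι → E}
    (hinj : ∀ L l : ℕ, Function.Injective (interp y z ((l : ℝ) / L))) {m : ι → ℝ}
    (hm0 : ∀ k, 0 < m k) (hm : ∑ k, m k = 1) {ε : ℝ} (hε : 0 < ε) :
    ∃ (ψ₀ ψ₁ : ι → ℝ) (c : ℝ), (∀ ψ, dual ρ y m ψ₀ ≤ dual ρ y m ψ + ε) ∧
      (∀ ψ, dual ρ z m ψ₁ ≤ dual ρ z m ψ + ε) ∧
      ∫ x, (pot y ψ₀ x - pot z ψ₁ x - c) ^ 2 ∂ρ ≤ 5000 * R ^ 2 * ∑ k, m k * ‖z k - y k‖ ^ 2 := by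
  classical
  have hR : 0 < R := lt_of_lt_of_le one_pos G.one_le
  have hy : Function.Injective y := by simpa [interp_zero] using hinj 1 0
  have hz : Function.Injective z := by simpa [interp_one] using hinj 1 1
  obtain ⟨ψ₀, hψ₀⟩ := G.exists_balanced hy hm0 hm
  obtain ⟨ψb, hψb⟩ := G.exists_balanced hz hm0 hm
  obtain ⟨B, hB0, hB⟩ := exists_bound hm0 fun j =>
    dual ρ z m 0 + var m (fun k => 0 - ψ₀ k) + R * ‖z j‖
  obtain ⟨B₀, hB₀⟩ := (Set.finite_range fun k => |ψ₀ k|).bddAbove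
  obtain ⟨D, hD⟩ := (Set.finite_range fun k => ‖z k - y k‖).bddAbove
  have hB₀' : ∀ k, |ψ₀ k| ≤ B₀ := fun k => hB₀ ⟨k, rfl⟩
  have hD' : ∀ k, ‖z k - y k‖ ≤ D := fun k => hD ⟨k, rfl⟩
  have hB₀0 : 0 ≤ B₀ := (abs_nonneg _).trans (hB₀' (Classical.arbitrary ι))
  have hD0 : 0 ≤ D := (norm_nonneg _).trans (hD' (Classical.arbitrary ι))
  set Vb := var m (fun k => ψb k - ψ₀ k) with hVb
  have hVb0 : 0 ≤ Vb := var_nonneg hm0 _
  obtain ⟨s, hs0, hs1, hs2, hs3, hs4⟩ : ∃ s : ℝ, 0 < s ∧ s ≤ 1 ∧ s * (B + B₀) ≤ 1 / 4 ∧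
      s * (112 * R * D) ≤ 1 ∧ s * Vb ≤ ε := by
    have key : ∀ a b : ℝ, 0 < b → ∀ᶠ s in 𝓝[>] (0 : ℝ), s * a ≤ b := fun a b hb => by
      have : Tendsto (fun s : ℝ => s * a) (𝓝 0) (𝓝 (0 * a)) := tendsto_id.mul_const a
      rw [zero_mul] at this
      exact nhdsWithin_le_nhds (this.eventually (ge_mem_nhds hb))
    have hpos : ∀ᶠ s in 𝓝[>] (0 : ℝ), s ∈ Ioi (0 : ℝ) := self_mem_nhdsWithin
    obtain ⟨s, ⟨⟨⟨⟨h0, h1⟩, h2⟩, h3⟩, h4⟩⟩ := ((((hpos.and (key 1 1 one_pos)).and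
      (key (B + B₀) (1 / 4) (by norm_num))).and (key (112 * R * D) 1 one_pos)).and
      (key Vb ε hε)).exists
    exact ⟨s, h0, by simpa using h1, h2, h3, h4⟩
  obtain ⟨ψ₁, hψ₁B, hψ₁⟩ := G.exists_min z hm0 hm (fun ψ => s / 2 * var m fun k => ψ k - ψ₀ k)
    (by unfold var; fun_prop) (fun ψ => mul_nonneg (by positivity) (var_nonneg hm0 _))
    (fun ψ c => by
      rw [← var_add_const hm (fun k => ψ k - ψ₀ k) c]
      congr 2; ext k; ring) hB0
    (fun k j => by
      refine le_trans ?_ (hB k j)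
      have := var_nonneg hm0 (fun k => 0 - ψ₀ k)
      have h2 : s / 2 * var m (fun k => 0 - ψ₀ k) ≤ var m (fun k => 0 - ψ₀ k) :=
        mul_le_of_le_one_left this (by linarith)
      simp only [Pi.zero_apply]
      linarith)
  set Δ : ι → ℝ := fun k => ψ₁ k - ψ₀ k with hΔ
  set c := ∑ j, m j * Δ j with hc
  set V := var m Δ with hV
  have hV0 : 0 ≤ V := var_nonneg hm0 _
  have hVd : V = ∑ k, m k * (Δ k - c) ^ 2 := rfl
  set m' : ι → ℝ := fun k => m k + s * (m k * (Δ k - c)) with hm'd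
  have hsum0 : ∑ k, m k * (Δ k - c) = 0 := by
    simp only [mul_sub, Finset.sum_sub_distrib, ← Finset.sum_mul, hm, ← hc]; ring
  have hm' : ∑ k, m' k = 1 := by
    simp only [hm'd, Finset.sum_add_distrib, ← Finset.mul_sum, hsum0, hm]; ring
  have hΔb : ∀ k, |Δ k| ≤ B + B₀ := fun k => by
    have := abs_le.1 (hB₀' k)
    have := hψ₁B k
    rw [abs_le]; simp only [hΔ]; constructor <;> linarith
  have hcb : |c| ≤ B + B₀ := by
    refine (Finset.abs_sum_le_sum_abs _ _).trans ?_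
    calc ∑ j, |m j * Δ j| ≤ ∑ j, m j * (B + B₀) := Finset.sum_le_sum fun j _ => by
          rw [abs_mul, abs_of_pos (hm0 j)]
          exact mul_le_mul_of_nonneg_left (hΔb j) (hm0 j).le
      _ = B + B₀ := by rw [← Finset.sum_mul, hm, one_mul]
  have hmm : ∀ k, |m' k - m k| ≤ m k / 2 := fun k => by
    have e : m' k - m k = m k * (s * (Δ k - c)) := by simp only [hm'd]; ring
    rw [e, abs_mul, abs_of_pos (hm0 k), abs_mul, abs_of_pos hs0]
    have h1 := abs_sub (Δ k) c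
    have h2 : s * |Δ k - c| ≤ s * (2 * (B + B₀)) :=
      mul_le_mul_of_nonneg_left (by linarith [hΔb k]) hs0.le
    have h3 := mul_le_mul_of_nonneg_left (show s * |Δ k - c| ≤ 1 / 2 by linarith) (hm0 k).le
    linarith
  have hb₁ : Balanced ρ z m' ψ₁ := by
    refine G.balanced_of_first_order hz hm' (C := 1) fun k t ht => ?_
    have h1 := hψ₁ fun j => ψ₁ j - if j = k then t else 0
    have e : (fun j => (ψ₁ j - if j = k then t else 0) - ψ₀ j)
        = fun j => Δ j - if j = k then t else 0 := by ext j; simp only [hΔ]; ring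
    simp only [dual, sum_mul_sub_ite] at h1
    rw [e, var_sub_ite hm, ← hc] at h1
    have h2 : s / 2 * (t ^ 2 * (m k - m k ^ 2)) ≤ 1 * t ^ 2 := by
      have a1 : m k - m k ^ 2 ≤ 1 := by nlinarith [sq_nonneg (m k - 1 / 2)]
      have a2 : t ^ 2 * (m k - m k ^ 2) ≤ t ^ 2 * 1 := mul_le_mul_of_nonneg_left a1 (sq_nonneg t)
      have a3 := mul_le_mul_of_nonneg_left a2 (show 0 ≤ s / 2 by positivity)
      nlinarith [sq_nonneg t]
    simp only [hm'd]
    linarith
  set w2 := ∑ k, m k * ‖z k - y k‖ ^ 2 with hw2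
  have hVw : V ≤ 896 * R ^ 2 * w2 := by
    have h1 := G.telescope hinj hm0 hm hm' hmm hψ₀ hb₁ (τ := s * (56 * R ^ 2)) (by positivity)
      (fun k => by
        have a1 := mul_le_mul_of_nonneg_left (hD' k) (show 0 ≤ s * (56 * R ^ 2) by positivity)
        have a2 := mul_le_mul_of_nonneg_left hs3 (show 0 ≤ R / 2 by positivity)
        nlinarith)
    have e1 : ∑ k, (m' k - m k) * (ψ₁ k - ψ₀ k) = s * V := by
      have : ∀ k, (m' k - m k) * (ψ₁ k - ψ₀ k)
          = s * (m k * (Δ k - c) ^ 2) + s * c * (m k * (Δ k - c)) := fun k => by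
        simp only [hm'd, hΔ]; ring
      simp only [this, Finset.sum_add_distrib, ← Finset.mul_sum, hsum0, ← hVd]; ring
    have e2 : ∑ k, (m' k - m k) ^ 2 / m k = s ^ 2 * V := by
      rw [hVd, Finset.mul_sum]
      refine Finset.sum_congr rfl fun k _ => ?_
      have := hm0 k
      simp only [hm'd]; field_simp; ring
    rw [e1, e2, ← hw2] at h1
    have e3 : 28 * R ^ 2 * (s ^ 2 * V) / (s * (56 * R ^ 2)) = s * V / 2 := by field_simp; ring
    rw [e3] at h1
    have h2 : s * V ≤ s * (896 * R ^ 2 * w2) := by linarith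
    exact le_of_mul_le_mul_left h2 hs0
  refine ⟨ψ₀, ψ₁, c, fun ψ => by linarith [G.dual_min hy hψ₀ ψ], fun ψ => ?_, ?_⟩
  · have h1 := hψ₁ ψb
    have h2 := G.dual_min hz hψb ψ
    have h3 : 0 ≤ s / 2 * V := by positivity
    have h4 : 0 ≤ s * Vb := by positivity
    change _ + s / 2 * V ≤ _ + s / 2 * Vb at h1
    linarith
  · set g : E → ℝ := fun x => pot y ψ₀ x - pot z ψ₁ x - c with hg
    have hgc : Continuous g :=
      ((continuous_pot y ψ₀).sub (continuous_pot z ψ₁)).sub continuous_const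
    set r : ι → ℝ := fun k => R * ‖z k - y k‖ + |Δ k - c| with hr
    have hr0 : ∀ k, 0 ≤ r k := fun k => by positivity
    have hin : ∀ k (x : E), ‖x‖ ≤ R → |⟪x, z k⟫ - ⟪x, y k⟫| ≤ R * ‖z k - y k‖ := fun k x hx => by
      rw [← inner_sub_right]
      exact (abs_real_inner_le_norm _ _).trans (mul_le_mul_of_nonneg_right hx (norm_nonneg _))
    have h1 := G.sq_pos_le hy hψ₀ hgc hr0 fun k x hx hx' => by
      have a1 := pot_eq_of_mem hx
      have a2 := aff_le_pot z ψ₁ k x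
      have a3 := (abs_le.1 (hin k x hx')).1
      have a4 := le_abs_self (Δ k - c)
      simp only [hg, hr, hΔ, aff] at *
      linarith
    have h2 := G.sq_pos_le hz hb₁ (g := fun x => -g x) hgc.neg hr0 fun k x hx hx' => by
      have a1 := pot_eq_of_mem hx
      have a2 := aff_le_pot y ψ₀ k x
      have a3 := (abs_le.1 (hin k x hx')).2
      have a4 := neg_abs_le (Δ k - c)
      simp only [hg, hr, hΔ, aff] at *
      linarith
    have h3 : ∫ x, g x ^ 2 ∂ρ = ∫ x, (max (g x) 0) ^ 2 ∂ρ + ∫ x, (max (-g x) 0) ^ 2 ∂ρ := by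
      rw [← integral_add (G.integrable (by fun_prop)) (G.integrable (by fun_prop))]
      congr 1; ext x
      rcases le_total (g x) 0 with h | h
      · rw [max_eq_right h, max_eq_left (by linarith)]; ring
      · rw [max_eq_left h, max_eq_right (by linarith)]; ring
    have h4 : ∑ k, m' k * r k ^ 2 ≤ 3 / 2 * ∑ k, m k * r k ^ 2 := by
      rw [Finset.mul_sum]
      refine Finset.sum_le_sum fun k _ => ?_
      have := (abs_le.1 (hmm k)).2
      nlinarith [sq_nonneg (r k)]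
    have h5 : ∑ k, m k * r k ^ 2 ≤ 2 * R ^ 2 * w2 + 2 * V := by
      rw [hw2, hVd, Finset.mul_sum, Finset.mul_sum, ← Finset.sum_add_distrib]
      refine Finset.sum_le_sum fun k _ => ?_
      have a1 : r k ^ 2 ≤ 2 * (R * ‖z k - y k‖) ^ 2 + 2 * (Δ k - c) ^ 2 := by
        simp only [hr]
        nlinarith [sq_nonneg (R * ‖z k - y k‖ - |Δ k - c|), sq_abs (Δ k - c)]
      have a2 := mul_le_mul_of_nonneg_left a1 (hm0 k).le
      nlinarith
    have hw0 : 0 ≤ R ^ 2 * w2 :=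
      mul_nonneg (sq_nonneg _) (Finset.sum_nonneg fun k _ => mul_nonneg (hm0 k).le (sq_nonneg _))
    change ∫ x, g x ^ 2 ∂ρ ≤ _
    linarith

end Crest.Agent.R82
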