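import Crest.Agent.R82.Interp
import Crest.Agent.R82.Stab

/-! Discretisation of the coupling and the final estimate. -/

set_option autoImplicit false
set_option linter.unusedSectionVars false

namespace Crest.Agent.R82

open MeasureTheory Filter Set Crest.AnalysisR.OT
open scoped RealInnerProductSpace Topology ENNReal NNReal

lemma exists_partition {X : Type*} [PseudoMetricSpace X] [MeasurableSpace X]
    [OpensMeasurableSpace X] {Z : Set X} (hZ : IsCompact Z) {δ : ℝ} (hδ : 0 < δ) :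
    ∃ (N : ℕ) (c : Fin N → X) (P : Fin N → Set X), (∀ k, c k ∈ Z) ∧ (∀ k, MeasurableSet (P k)) ∧
      Pairwise (Function.onFun Disjoint P) ∧ (∀ k, P k ⊆ Metric.ball (c k) δ) ∧ Z ⊆ ⋃ k, P k := by
  obtain ⟨t, htZ, htf, hcov⟩ := finite_cover_balls_of_compact hZ hδ
  obtain ⟨N, c, -, hc⟩ := htf.fin_param
  refine ⟨N, c, fun k => Metric.ball (c k) δ \ ⋃ j ∈ {j | j < k}, Metric.ball (c j) δ,
    fun k => htZ (hc ▸ mem_range_self k), fun k => Metric.isOpen_ball.measurableSet.diff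
      (isOpen_biUnion fun _ _ => Metric.isOpen_ball).measurableSet, ?_, fun k => diff_subset, ?_⟩
  · intro i j hij
    rcases lt_or_gt_of_ne hij with h | h
    · exact Set.disjoint_left.2 fun x hi hj => hj.2 (mem_biUnion h hi.1)
    · exact Set.disjoint_left.2 fun x hi hj => hi.2 (mem_biUnion h hj.1)
  · intro x hx
    obtain ⟨y, hy, hxy⟩ := mem_iUnion₂.1 (hcov hx)
    rw [← hc] at hy
    obtain ⟨j, rfl⟩ := hy
    obtain ⟨k, hk, hmin⟩ := (wellFounded_lt (α := Fin N)).has_min {j | x ∈ Metric.ball (c j) δ}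
      ⟨j, hxy⟩
    refine mem_iUnion.2 ⟨k, hk, fun h => ?_⟩
    obtain ⟨i, hi, hxi⟩ := mem_iUnion₂.1 h
    exact hmin i hxi hi

lemma exists_generic {E : Type*} [NormedAddCommGroup E] [InnerProductSpace ℝ E] {ι : Type*}
    [Fintype ι] (a b : ι → E) (n : ι → ℝ) (hn : Function.Injective n) {e : E} (he : e ≠ 0)
    {ε₀ : ℝ} (hε₀ : 0 < ε₀) :
    ∃ ε : ℝ, 0 < ε ∧ ε < ε₀ ∧ ∀ L l : ℕ, Function.Injective
      (interp (fun k => a k + (ε * n k) • e) (fun k => b k + (ε * n k) • e) ((l : ℝ) / L)) := by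
  set B : ℕ × ℕ × ι × ι → Set ℝ := fun q => {ε | q.2.2.1 ≠ q.2.2.2 ∧
    interp a b ((q.2.1 : ℝ) / q.1) q.2.2.1 + (ε * n q.2.2.1) • e
      = interp a b ((q.2.1 : ℝ) / q.1) q.2.2.2 + (ε * n q.2.2.2) • e} with hB
  have hc : (⋃ q, B q).Countable := by
    refine countable_iUnion fun q => Set.Subsingleton.countable ?_
    rintro ε₁ ⟨hne, h1⟩ ε₂ ⟨-, h2⟩
    have h3 : ((ε₁ - ε₂) * (n q.2.2.1 - n q.2.2.2)) • e = 0 := by
      have := congrArg₂ (· - ·) h1 h2
      simp only [add_sub_add_left_eq_sub] at this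
      rw [← sub_eq_zero, ← sub_smul, ← sub_smul, ← sub_smul] at this
      rw [← this]; congr 1; ring
    rcases smul_eq_zero.1 h3 with h | h
    · rcases mul_eq_zero.1 h with h | h
      · linarith
      · exact absurd (hn (sub_eq_zero.1 h)) hne
    · exact absurd h he
  obtain ⟨ε, hε, hεI⟩ := (hc.dense_compl ℝ).exists_mem_open isOpen_Ioo (nonempty_Ioo.2 hε₀)
  refine ⟨ε, hεI.1, hεI.2, fun L l k k' h => ?_⟩
  by_contra hne
  refine hε (mem_iUnion.2 ⟨(L, l, k, k'), hne, ?_⟩)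
  simp only [interp, add_sub_add_right_eq_sub] at h ⊢
  rw [add_right_comm, h, add_right_comm]

variable {d : ℕ}

local notation "E" => EuclideanSpace ℝ (Fin d)

theorem real_estimate (hd : 0 < d) {K : Set E} (hKc : IsCompact K) (hKv : Convex ℝ K)
    (hKi : (interior K).Nonempty) {Y : Set E} (hYc : IsCompact Y) :
    ∃ C η₀ : ℝ, 0 ≤ C ∧ 0 < η₀ ∧ ∀ μ ν : Measure E, IsProbabilityOn Y μ → IsProbabilityOn Y ν →
      ∀ Tμ Tν : E → E, IsOptimalMap (uniformProbOn K) μ Tμ → IsOptimalMap (uniformProbOn K) ν Tν →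
      ∀ π : Measure (E × E), IsPairCoupling μ ν π → ∀ η : ℝ, 0 < η → η ≤ η₀ →
        ∫ x, ‖Tμ x - Tν x‖ ^ 2 ∂(uniformProbOn K)
          ≤ C * ((∫ q, ‖q.1 - q.2‖ ^ 2 ∂π) / η ^ 2 + η) := by
  classical
  obtain ⟨R₀, hR₀⟩ := hKc.isBounded.exists_norm_le
  obtain ⟨L₀, hL₀⟩ := hYc.isBounded.exists_norm_le
  set R := max R₀ 1 with hRd
  set L := max L₀ 0 with hLd
  have hR1 : 1 ≤ R := le_max_right _ _
  have hR : ∀ x ∈ K, ‖x‖ ≤ R := fun x hx => (hR₀ x hx).trans (le_max_left _ _)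
  have hL0 : 0 ≤ L := le_max_right _ _
  have hL : ∀ x ∈ Y, ‖x‖ ≤ L := fun x hx => (hL₀ x hx).trans (le_max_left _ _)
  have G := unif_good hKc hKv hKi hR1 hR
  obtain ⟨C, η₀, hC, hη₀, hint⟩ := interpolation hKc hKv hKi hR (L := L + 1) (by positivity)
  refine ⟨C * (10000 * R ^ 2), η₀, by positivity, hη₀, ?_⟩
  intro μ ν hμ hν Tμ Tν hTμ hTν π hπ η hη0 hη
  set ρ := uniformProbOn K with hρ
  have : Nontrivial E := by
    have : Nonempty (Fin d) := ⟨⟨0, hd⟩⟩
    infer_instance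
  have hμp := hμ.1
  have hνp := hν.1
  have hπp : IsProbabilityMeasure π := ⟨by
    have := congrArg (fun m : Measure E => m univ) hπ.1
    simpa [Measure.map_apply measurable_fst MeasurableSet.univ] using this⟩
  have hμY : ∀ᵐ q ∂μ, q ∈ Y := hμ.2
  have hνY : ∀ᵐ q ∂ν, q ∈ Y := hν.2
  have hπY : ∀ᵐ q ∂π, q ∈ Y ×ˢ Y := by
    filter_upwards [ae_of_ae_map measurable_fst.aemeasurable (hπ.1 ▸ hμY),
      ae_of_ae_map measurable_snd.aemeasurable (hπ.2 ▸ hνY)] with q h1 h2 using ⟨h1, h2⟩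
  set W := ∫ q, ‖q.1 - q.2‖ ^ 2 ∂π with hW
  have iW : Integrable (fun q : E × E => ‖q.1 - q.2‖ ^ 2) π := by
    rw [← Measure.restrict_eq_self_of_ae_mem hπY]
    exact (by fun_prop : Continuous fun q : E × E => ‖q.1 - q.2‖ ^ 2).continuousOn.integrableOn_compact
      (hYc.prod hYc)
  have hW0 : 0 ≤ W := integral_nonneg fun q => sq_nonneg _
  have hμL : ∀ᵐ q ∂(ρ.map Tμ), ‖q‖ ≤ L + 1 := by
    rw [hTμ.2.1]; exact hμY.mono fun q hq => by linarith [hL q hq]
  have hνL : ∀ᵐ q ∂(ρ.map Tν), ‖q‖ ≤ L + 1 := by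
    rw [hTν.2.1]; exact hνY.mono fun q hq => by linarith [hL q hq]
  have main : ∀ δ : ℝ, 0 < δ → δ ≤ 1 → ∫ x, ‖Tμ x - Tν x‖ ^ 2 ∂ρ ≤
      C * (5000 * R ^ 2 * (2 * W + 8 * δ ^ 2) / η ^ 2 + η
        + (2 * (δ + (2 * R + 1) * (2 * δ))) / η) := by
    intro δ hδ hδ1
    obtain ⟨N, c, P, hcZ, hPm, hPd, hPb, hcov⟩ := exists_partition (hYc.prod hYc) hδ
    let ι := {k : Fin N // π (P k) ≠ 0}
    have hπs : π = ∑ k : ι, π.restrict (P k) := by
      have h1 : π = ∑ k, π.restrict (P k) := by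
        rw [← Measure.sum_fintype, ← Measure.restrict_iUnion hPd hPm,
          Measure.restrict_eq_self_of_ae_mem (hπY.mono fun q hq => hcov hq)]
      conv_lhs => rw [h1]
      rw [← Finset.sum_subtype (Finset.univ.filter fun k => π (P k) ≠ 0) (by simp)
        (fun k => π.restrict (P k)), Finset.sum_filter_of_ne]
      intro k _ hk h0
      exact hk (Measure.restrict_eq_zero.2 h0)
    set m : ι → ℝ := fun k => π.real (P k) with hmd
    have hm0 : ∀ k, 0 < m k := fun k => ENNReal.toReal_pos k.2 (measure_ne_top _ _)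
    have hsum : ∀ f : E × E → ℝ, Integrable f π → ∫ q, f q ∂π = ∑ k : ι, ∫ q in P k, f q ∂π :=
      fun f hf => by
        conv_lhs => rw [hπs]
        exact integral_finsetSum_measure fun k _ => hf.restrict
    have hm : ∑ k, m k = 1 := by
      simpa using (hsum (fun _ => 1) (integrable_const _)).symm
    have : Nonempty ι := by
      by_contra h
      rw [not_nonempty_iff] at h
      simp at hm
    set e : E := EuclideanSpace.single ⟨0, hd⟩ (1 : ℝ) with he
    have hen : ‖e‖ = 1 := by simp [he]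
    obtain ⟨ε, hε0, hε1, hinj⟩ := exists_generic (fun k : ι => (c k).1) (fun k : ι => (c k).2)
      (fun k => ((k : Fin N) : ℕ)) (fun k k' h => Subtype.ext (Fin.ext (Nat.cast_injective h)))
      (e := e) (by rw [← norm_pos_iff, hen]; exact one_pos) (ε₀ := δ / (N + 1)) (by positivity)
    have hpert : ∀ k : ι, ‖(ε * (((k : Fin N) : ℕ) : ℝ)) • e‖ ≤ δ := fun k => by
      rw [norm_smul, hen, mul_one, Real.norm_eq_abs, abs_of_nonneg (by positivity)]
      rw [lt_div_iff₀ (by positivity)] at hε1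
      have : (((k : Fin N) : ℕ) : ℝ) ≤ N + 1 := by
        have := (k : Fin N).2
        exact_mod_cast (by omega)
      nlinarith
    set y : ι → E := fun k => (c k).1 + (ε * (((k : Fin N) : ℕ) : ℝ)) • e with hy
    set z : ι → E := fun k => (c k).2 + (ε * (((k : Fin N) : ℕ) : ℝ)) • e with hz
    have hyi : Function.Injective y := by simpa [interp_zero] using hinj 1 0
    have hzi : Function.Injective z := by simpa [interp_one] using hinj 1 1
    have hyL : ∀ k, ‖y k‖ ≤ L + 1 := fun k =>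
      (norm_add_le _ _).trans (add_le_add (hL _ (hcZ k).1) ((hpert k).trans hδ1))
    have hzL : ∀ k, ‖z k‖ ≤ L + 1 := fun k =>
      (norm_add_le _ _).trans (add_le_add (hL _ (hcZ k).2) ((hpert k).trans hδ1))
    have hP1 : ∀ k, ∀ q ∈ P k, ‖q.1 - (c k).1‖ ≤ δ ∧ ‖q.2 - (c k).2‖ ≤ δ := fun k q hq => by
      have := hPb k hq
      rw [Metric.mem_ball, Prod.dist_eq, max_lt_iff, dist_eq_norm, dist_eq_norm] at this
      exact ⟨this.1.le, this.2.le⟩
    obtain ⟨ψ₀, ψ₁, c₀, h0, h1, h2⟩ := G.stability hinj hm0 hm hδ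
    have hclose : ∀ (f : E × E → E) (hf : Measurable f) (p : ι → E),
        (∀ k : ι, ∀ q ∈ P k, ‖f q - p k‖ ≤ 2 * δ) →
        ∀ k : ι, ∀ᵐ q ∂((π.restrict (P k)).map f), ‖q - p k‖ ≤ 2 * δ := fun f hf p hp k => by
      rw [ae_map_iff hf.aemeasurable (measurableSet_le (by fun_prop) measurable_const)]
      exact (ae_restrict_mem (hPm k)).mono (hp k)
    have hmass : ∀ (f : E × E → E) (hf : Measurable f) (k : ι),
        ((π.restrict (P k)).map f) univ = ENNReal.ofReal (m k) := fun f hf k => by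
      rw [Measure.map_apply hf MeasurableSet.univ, preimage_univ, Measure.restrict_apply_univ,
        hmd, ofReal_measureReal]
    have hmap : ∀ (f : E × E → E) (hf : Measurable f),
        π.map f = ∑ k : ι, (π.restrict (P k)).map f := fun f hf => by
      conv_lhs => rw [hπs]
      exact Measure.map_finset_sum hf.aemeasurable
    have eμ : μ = ∑ k : ι, (π.restrict (P k)).map Prod.fst := hπ.1 ▸ hmap _ measurable_fst
    have eν : ν = ∑ k : ι, (π.restrict (P k)).map Prod.snd := hπ.2 ▸ hmap _ measurable_snd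
    obtain ⟨e₀, ie₀, be₀, se₀⟩ := G.approx_subgradient hyi hm0 hm _ (hmass _ measurable_fst)
      (hclose _ measurable_fst y fun k q hq => by
        have := norm_sub_le (q.1 - (c k).1) ((ε * (((k : Fin N) : ℕ) : ℝ)) • e)
        rw [sub_sub] at this
        linarith [(hP1 k q hq).1, hpert k])
      hTμ.1 (hTμ.2.1.trans eμ) hμL (fun S hS hSm => hTμ.2.2 S hS (hSm.trans eμ.symm)) h0
    obtain ⟨e₁, ie₁, be₁, se₁⟩ := G.approx_subgradient hzi hm0 hm _ (hmass _ measurable_snd)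
      (hclose _ measurable_snd z fun k q hq => by
        have := norm_sub_le (q.2 - (c k).2) ((ε * (((k : Fin N) : ℕ) : ℝ)) • e)
        rw [sub_sub] at this
        linarith [(hP1 k q hq).2, hpert k])
      hTν.1 (hTν.2.1.trans eν) hνL (fun S hS hSm => hTν.2.2 S hS (hSm.trans eν.symm)) h1
    have hw : ∑ k, m k * ‖z k - y k‖ ^ 2 ≤ 2 * W + 8 * δ ^ 2 := by
      have i1 : Integrable (fun q : E × E => 2 * ‖q.1 - q.2‖ ^ 2 + 8 * δ ^ 2) π :=
        (iW.const_mul 2).add (integrable_const _)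
      have a1 := hsum _ i1
      rw [integral_add (iW.const_mul 2) (integrable_const _), integral_const_mul, integral_const,
        probReal_univ, one_smul] at a1
      rw [a1]
      refine Finset.sum_le_sum fun k _ => ?_
      have a2 : ∫ q in P k, ‖z k - y k‖ ^ 2 ∂π
          ≤ ∫ q in P k, (2 * ‖q.1 - q.2‖ ^ 2 + 8 * δ ^ 2) ∂π := by
        refine integral_mono_ae (integrable_const _) i1.restrict ?_
        filter_upwards [ae_restrict_mem (hPm k)] with q hq
        have b1 : z k - y k = (q.1 - (c k).1) - (q.2 - (c k).2) - (q.1 - q.2) := by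
          simp only [hy, hz]; abel
        have b2 := norm_sub_le ((q.1 - (c k).1) - (q.2 - (c k).2)) (q.1 - q.2)
        have b3 := norm_sub_le (q.1 - (c k).1) (q.2 - (c k).2)
        have b4 : ‖z k - y k‖ ≤ ‖q.1 - q.2‖ + 2 * δ := by
          rw [b1]; linarith [(hP1 k q hq).1, (hP1 k q hq).2]
        have b5 := pow_le_pow_left₀ (norm_nonneg _) b4 2
        nlinarith [sq_nonneg (‖q.1 - q.2‖ - 2 * δ)]
      rwa [setIntegral_const, smul_eq_mul] at a2
    have h3 := hint (pot y ψ₀) (pot z ψ₁) Tμ Tν e₀ e₁ c₀ η (continuous_pot _ _) (continuous_pot _ _)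
      (pot_lip ψ₀ hyL) (pot_lip ψ₁ hzL) (convex_pot y ψ₀) (convex_pot z ψ₁) hTμ.1 hTν.1
      (ae_of_ae_map hTμ.1.aemeasurable hμL) (ae_of_ae_map hTν.1.aemeasurable hνL) ie₀ ie₁ se₀ se₁
      hη0 hη
    refine h3.trans (mul_le_mul_of_nonneg_left ?_ hC)
    have h4 := h2.trans (mul_le_mul_of_nonneg_left hw (show 0 ≤ 5000 * R ^ 2 by positivity))
    have h5 := div_le_div_of_nonneg_right h4 (sq_nonneg η)
    have h6 := div_le_div_of_nonneg_right (add_le_add be₀ be₁) hη0.le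
    have h7 : (δ + (2 * R + 1) * (2 * δ) + (δ + (2 * R + 1) * (2 * δ))) / η
        = 2 * (δ + (2 * R + 1) * (2 * δ)) / η := by ring
    linarith
  have hcont : Continuous fun δ : ℝ => C * (5000 * R ^ 2 * (2 * W + 8 * δ ^ 2) / η ^ 2 + η
        + (2 * (δ + (2 * R + 1) * (2 * δ))) / η) := by fun_prop
  have ht := (hcont.tendsto 0).mono_left (nhdsWithin_le_nhds (s := Ioi (0 : ℝ)))
  have h1 := ge_of_tendsto ht (by
    filter_upwards [Ioc_mem_nhdsGT (show (0 : ℝ) < 1 from one_pos)] with δ hδ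
      using main δ hδ.1 hδ.2)
  refine h1.trans ?_
  have h2 : η ≤ 10000 * R ^ 2 * η := le_mul_of_one_le_left hη0.le (by nlinarith)
  have h3 := mul_le_mul_of_nonneg_left h2 hC
  have e1 : C * (5000 * R ^ 2 * (2 * W + 8 * 0 ^ 2) / η ^ 2 + η
      + 2 * (0 + (2 * R + 1) * (2 * 0)) / η) = C * (10000 * R ^ 2) * (W / η ^ 2) + C * η := by ring
  rw [e1]
  linarith

theorem stability_third (hd : 0 < d) {K : Set E} (hKc : IsCompact K) (hKv : Convex ℝ K)
    (hKi : (interior K).Nonempty) {Y : Set E} (hYc : IsCompact Y) :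
    ∃ C : ℝ≥0, ∀ μ ν : Measure E, IsProbabilityOn Y μ → IsProbabilityOn Y ν →
      ∀ Tμ Tν : E → E, IsOptimalMap (uniformProbOn K) μ Tμ → IsOptimalMap (uniformProbOn K) ν Tν →
      ∀ π : Measure (E × E), IsPairCoupling μ ν π →
        ∫⁻ x, ‖Tμ x - Tν x‖ₑ ^ 2 ∂(uniformProbOn K) ≤ C * quadCost π ^ (1 / 3 : ℝ) := by
  obtain ⟨C, η₀, hC, hη₀, hest⟩ := real_estimate hd hKc hKv hKi hYc
  obtain ⟨L, hL⟩ := hYc.isBounded.exists_norm_le
  set C' := 2 * C + 4 * L ^ 2 / η₀ with hC'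
  have hC'0 : 0 ≤ C' := by positivity
  refine ⟨⟨C', hC'0⟩, fun μ ν hμ hν Tμ Tν hTμ hTν π hπ => ?_⟩
  have := unif_prob hKc hKi
  have h1 := hest μ ν hμ hν Tμ Tν hTμ hTν π hπ
  have hμY : ∀ᵐ q ∂μ, q ∈ Y := hμ.2
  have hνY : ∀ᵐ q ∂ν, q ∈ Y := hν.2
  have hμp := hμ.1
  have hπp : IsProbabilityMeasure π := ⟨by
    have := congrArg (fun m : Measure E => m univ) hπ.1
    simpa [Measure.map_apply measurable_fst MeasurableSet.univ] using this⟩
  have hπY : ∀ᵐ q ∂π, q ∈ Y ×ˢ Y := by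
    filter_upwards [ae_of_ae_map measurable_fst.aemeasurable (hπ.1 ▸ hμY),
      ae_of_ae_map measurable_snd.aemeasurable (hπ.2 ▸ hνY)] with q h1 h2 using ⟨h1, h2⟩
  have iW : Integrable (fun q : E × E => ‖q.1 - q.2‖ ^ 2) π := by
    rw [← Measure.restrict_eq_self_of_ae_mem hπY]
    exact (by fun_prop : Continuous fun q : E × E => ‖q.1 - q.2‖ ^ 2).continuousOn.integrableOn_compact
      (hYc.prod hYc)
  have hbd : ∀ᵐ x ∂(uniformProbOn K), ‖Tμ x - Tν x‖ ^ 2 ≤ 4 * L ^ 2 := by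
    filter_upwards [ae_of_ae_map hTμ.1.aemeasurable (hTμ.2.1 ▸ hμY),
      ae_of_ae_map hTν.1.aemeasurable (hTν.2.1 ▸ hνY)] with x h1 h2
    have a1 := (norm_sub_le _ _).trans (add_le_add (hL _ h1) (hL _ h2))
    have a2 := pow_le_pow_left₀ (norm_nonneg _) a1 2
    linarith
  have iI : Integrable (fun x => ‖Tμ x - Tν x‖ ^ 2) (uniformProbOn K) :=
    integrable_of_bdd ((hTμ.1.sub hTν.1).norm.pow_const 2) (C := 4 * L ^ 2)
      (hbd.mono fun x hx => by rwa [abs_of_nonneg (sq_nonneg _)])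
  set W := ∫ q, ‖q.1 - q.2‖ ^ 2 ∂π with hW
  set I := ∫ x, ‖Tμ x - Tν x‖ ^ 2 ∂(uniformProbOn K) with hI
  have hW0 : 0 ≤ W := integral_nonneg fun q => sq_nonneg _
  have hI4 : I ≤ 4 * L ^ 2 := by
    simpa using integral_mono_ae iI (integrable_const (4 * L ^ 2)) hbd
  have e1 : ∫⁻ x, ‖Tμ x - Tν x‖ₑ ^ 2 ∂(uniformProbOn K) = ENNReal.ofReal I := by
    rw [hI, ofReal_integral_eq_lintegral_ofReal iI (Eventually.of_forall fun x => sq_nonneg _)]
    congr 1; ext x
    rw [← ofReal_norm, ENNReal.ofReal_pow (norm_nonneg _)]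
  have e2 : quadCost π = ENNReal.ofReal W := by
    rw [hW, ofReal_integral_eq_lintegral_ofReal iW (Eventually.of_forall fun x => sq_nonneg _),
      quadCost]
    congr 1; ext x
    rw [← ofReal_norm, ENNReal.ofReal_pow (norm_nonneg _)]
  set w := W ^ (1 / 3 : ℝ) with hw
  have hw0 : 0 ≤ w := Real.rpow_nonneg hW0 _
  have hw3 : w ^ 3 = W := by
    rw [hw, ← Real.rpow_natCast, ← Real.rpow_mul hW0]; norm_num
  have hmain : I ≤ C' * w := by
    have b0 : 0 ≤ 4 * L ^ 2 / η₀ * w := by positivity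
    have b1 : 0 ≤ C * w := by positivity
    rcases hw0.eq_or_lt with h | h
    · have hW' : W = 0 := by rw [← hw3, ← h]; simp
      rw [← h, mul_zero]
      have ht : Tendsto (fun η : ℝ => C * η) (𝓝[>] 0) (𝓝 (C * 0)) :=
        (tendsto_id.const_mul C).mono_left nhdsWithin_le_nhds
      rw [mul_zero] at ht
      refine ge_of_tendsto ht ?_
      filter_upwards [Ioc_mem_nhdsGT hη₀] with η hη
      simpa [hW'] using h1 η hη.1 hη.2
    · rcases le_total w η₀ with h' | h'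
      · have := h1 w h h'
        rw [show W / w ^ 2 = w by rw [← hw3]; field_simp] at this
        rw [hC']; linarith
      · have : 4 * L ^ 2 ≤ 4 * L ^ 2 / η₀ * w := by
          rw [div_mul_eq_mul_div, le_div_iff₀ hη₀]
          exact mul_le_mul_of_nonneg_left h' (by positivity)
        rw [hC']; linarith
  rw [e1, e2, ENNReal.ofReal_rpow_of_nonneg hW0 (by norm_num), ← hw,
    ENNReal.coe_nnreal_eq, ← ENNReal.ofReal_mul (NNReal.coe_nonneg _)]
  exact ENNReal.ofReal_le_ofReal hmain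

end Crest.Agent.R82
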