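import Crest.Agent.R82.Compet
import Crest.Agent.Lib.Convex.BrunnMinkowski
import Crest.Prelude.Def_QuadraticTransport

/-! The uniform measure on a convex body, and the finite-difference interpolation inequality. -/

set_option autoImplicit false
set_option linter.unusedSectionVars false

namespace Crest.Agent.R82

open MeasureTheory Filter Set Crest.AnalysisR.OT
open scoped RealInnerProductSpace Topology ENNReal

variable {d : ℕ}

local notation "E" => EuclideanSpace ℝ (Fin d)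

lemma vol_pos {K : Set E} (hKi : (interior K).Nonempty) : volume K ≠ 0 :=
  (Measure.measure_pos_of_nonempty_interior _ hKi).ne'

lemma unif_prob {K : Set E} (hKc : IsCompact K) (hKi : (interior K).Nonempty) :
    IsProbabilityMeasure (uniformProbOn K) :=
  ⟨by simp [uniformProbOn, ENNReal.inv_mul_cancel (vol_pos hKi) hKc.measure_lt_top.ne]⟩

lemma unif_ae_mem {K : Set E} (hKc : IsCompact K) : ∀ᵐ x ∂(uniformProbOn K), x ∈ K :=
  Measure.ae_smul_measure (ae_restrict_mem hKc.measurableSet) _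

lemma unif_integral (K : Set E) (f : E → ℝ) :
    ∫ x, f x ∂(uniformProbOn K) = (volume.real K)⁻¹ * ∫ x in K, f x := by
  rw [uniformProbOn, integral_smul_measure, smul_eq_mul, ENNReal.toReal_inv]; rfl

lemma unif_good {K : Set E} (hKc : IsCompact K) (hKv : Convex ℝ K) (hKi : (interior K).Nonempty)
    {R : ℝ} (hR1 : 1 ≤ R) (hR : ∀ x ∈ K, ‖x‖ ≤ R) : Good (uniformProbOn K) R where
  prob := unif_prob hKc hKi
  one_le := hR1
  bdd := (unif_ae_mem hKc).mono hR
  hyper := fun v hv c => by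
    have h1 : volume {x : E | ⟪x, v⟫ = c} = 0 := by
      let S : AffineSubspace ℝ E :=
        { carrier := {x : E | ⟪x, v⟫ = c}
          smul_vsub_vadd_mem' := fun a p₁ p₂ p₃ h₁ h₂ h₃ => by
            simp only [mem_setOf_eq, vsub_eq_sub, vadd_eq_add, inner_add_left, inner_smul_left,
              inner_sub_left] at *
            rw [h₁, h₂, h₃]; simp }
      refine Measure.addHaar_affineSubspace volume S fun h => ?_
      have h0 : (0 : E) ∈ S := h ▸ AffineSubspace.mem_top _ _ _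
      have h1 : v ∈ S := h ▸ AffineSubspace.mem_top _ _ _
      change ⟪(0 : E), v⟫ = c at h0
      change ⟪v, v⟫ = c at h1
      rw [inner_zero_left] at h0
      exact hv (inner_self_eq_zero.1 (h1.trans h0.symm))
    rw [uniformProbOn, Measure.smul_apply,
      le_antisymm ((Measure.restrict_apply_le _ _).trans h1.le) zero_le, smul_zero]
  pl := fun f g h hf hg hh H => by
    have hm := hKc.measurableSet
    have := Crest.Agent.Lib.BM.prekopa_leindler_midpoint
      (hf.indicator hm) (hg.indicator hm) (hh.indicator hm) (fun x y => by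
        by_cases hx : x ∈ K
        · by_cases hy : y ∈ K
          · rw [indicator_of_mem hx, indicator_of_mem hy,
              indicator_of_mem (hKv.midpoint_mem hx hy)]
            exact H x y (hR x hx) (hR y hy)
          · simp [indicator_of_notMem hy]
        · simp [indicator_of_notMem hx])
    rw [lintegral_indicator hm, lintegral_indicator hm, lintegral_indicator hm] at this
    simp only [uniformProbOn, lintegral_smul_measure, smul_eq_mul]
    rw [mul_pow, mul_mul_mul_comm, ← sq]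
    exact mul_le_mul_right this _

lemma second_diff {K : Set E} (hKc : IsCompact K) {R : ℝ} (hR : ∀ x ∈ K, ‖x‖ ≤ R) {φ : E → ℝ}
    (hφ : Continuous φ) {L : ℝ} (hL0 : 0 ≤ L) (hL : ∀ x y, φ x ≤ φ y + L * ‖x - y‖) {v : E}
    (hv : ‖v‖ ≤ 1) (hconv : ∀ x, 2 * φ x ≤ φ (x + v) + φ (x - v)) :
    ∫ x in K, (φ (x + v) + φ (x - v) - 2 * φ x)
      ≤ L * ‖v‖ ^ 2 * volume.real (Metric.closedBall (0 : E) (R + 2)) := by
  set ω : E → ℝ := fun x => max 0 (min 1 (R + 1 - ‖x‖)) with hω
  have hωc : Continuous ω := by fun_prop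
  have hω0 : ∀ x, 0 ≤ ω x := fun x => le_max_left _ _
  have hω1 : ∀ x ∈ K, ω x = 1 := fun x hx => by
    simp only [hω]
    rw [min_eq_left (by linarith [hR x hx]), max_eq_right zero_le_one]
  have hωz : ∀ x, R + 1 ≤ ‖x‖ → ω x = 0 := fun x hx =>
    max_eq_left ((min_le_right _ _).trans (by linarith))
  have hωl : ∀ x, |ω x - ω (x + v)| ≤ ‖v‖ := fun x => by
    simp only [hω]
    rw [max_comm 0, max_comm 0]
    refine (abs_max_sub_max_le_abs _ _ _).trans ?_
    refine (abs_min_sub_min_le_max _ _ _ _).trans (max_le (by simp) ?_)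
    have := abs_norm_sub_norm_le (x + v) x
    rw [add_sub_cancel_left] at this
    rwa [show R + 1 - ‖x‖ - (R + 1 - ‖x + v‖) = ‖x + v‖ - ‖x‖ by ring]
  have cs : ∀ {f : E → ℝ}, Continuous f → (∀ x, R + 2 < ‖x‖ → f x = 0) → Integrable f :=
    fun {f} hf h0 => hf.integrable_of_hasCompactSupport
      (HasCompactSupport.intro (isCompact_closedBall (0 : E) (R + 2)) fun x hx => h0 x (by
        simpa using hx))
  set D : E → ℝ := fun x => φ (x + v) - φ x with hD
  have hDc : Continuous D := by fun_prop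
  have hDb : ∀ x, |D x| ≤ L * ‖v‖ := fun x => by
    have h1 := hL (x + v) x
    have h2 := hL x (x + v)
    rw [add_sub_cancel_left] at h1
    rw [sub_add_cancel_left, norm_neg] at h2
    rw [abs_le]; simp only [hD]; constructor <;> linarith
  have hωv : ∀ x, R + 2 < ‖x‖ → ω (x + v) = 0 := fun x hx => hωz _ (by
    have := norm_sub_norm_le x (x + v)
    rw [sub_add_cancel_left, norm_neg] at this
    linarith)
  have i1 : Integrable fun x => ω x * D x :=
    cs (by fun_prop) fun x hx => by rw [hωz x (by linarith), zero_mul]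
  have i2 : Integrable fun x => ω x * D (x - v) :=
    cs (by fun_prop) fun x hx => by rw [hωz x (by linarith), zero_mul]
  have i3 : Integrable fun x => ω (x + v) * D x :=
    cs (by fun_prop) fun x hx => by rw [hωv x hx, zero_mul]
  have e0 : ∀ x, φ (x + v) + φ (x - v) - 2 * φ x = D x - D (x - v) := fun x => by
    simp only [hD, sub_add_cancel]; ring
  have h1 : ∫ x in K, (φ (x + v) + φ (x - v) - 2 * φ x)
      = ∫ x in K, (ω x * D x - ω x * D (x - v)) :=
    setIntegral_congr_fun hKc.measurableSet fun x hx => by simp only [hω1 x hx, e0]; ring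
  have h2 : ∫ x in K, (ω x * D x - ω x * D (x - v)) ≤ ∫ x, (ω x * D x - ω x * D (x - v)) := by
    refine setIntegral_le_integral (i1.sub i2) (Eventually.of_forall fun x => ?_)
    have := mul_nonneg (hω0 x) (show 0 ≤ D x - D (x - v) by rw [← e0]; linarith [hconv x])
    simp only [Pi.zero_apply]
    linarith
  have h3 : ∫ x, ω x * D (x - v) = ∫ x, ω (x + v) * D x := by
    rw [← integral_add_right_eq_self (fun x => ω x * D (x - v)) v]
    simp only [add_sub_cancel_right]
  have h4 : ∫ x, (ω x * D x - ω (x + v) * D x)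
      ≤ ∫ x, (Metric.closedBall (0 : E) (R + 2)).indicator (fun _ => L * ‖v‖ ^ 2) x := by
    refine integral_mono (i1.sub i3) ((integrableOn_const
      (isCompact_closedBall _ _).measure_lt_top.ne).integrable_indicator
      Metric.isClosed_closedBall.measurableSet) fun x => ?_
    by_cases hx : x ∈ Metric.closedBall (0 : E) (R + 2)
    · rw [indicator_of_mem hx]
      have : (ω x - ω (x + v)) * D x ≤ ‖v‖ * (L * ‖v‖) := by
        refine (le_abs_self _).trans ?_
        rw [abs_mul]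
        exact mul_le_mul (hωl x) (hDb x) (abs_nonneg _) (norm_nonneg _)
      linarith
    · rw [indicator_of_notMem hx]
      have hx' : R + 2 < ‖x‖ := by simpa using hx
      simp only [hωz x (by linarith), hωv x hx', zero_mul, sub_self, le_refl]
  rw [integral_indicator Metric.isClosed_closedBall.measurableSet, setIntegral_const,
    smul_eq_mul, integral_sub i1 i3] at h4
  rw [integral_sub i1 i2, h3] at h2
  linarith

lemma shift_le {K : Set E} (hKc : IsCompact K) {g : E → ℝ} (hg : Continuous g)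
    (hg0 : ∀ x, 0 ≤ g x) (v : E) :
    Integrable (fun x => K.indicator g (x + v)) ∧
      ∫ x in K, K.indicator g (x + v) ≤ ∫ x in K, g x := by
  have i1 : Integrable (K.indicator g) :=
    (hg.continuousOn.integrableOn_compact hKc).integrable_indicator hKc.measurableSet
  have i2 : Integrable (fun x => K.indicator g (x + v)) := i1.comp_add_right v
  refine ⟨i2, ?_⟩
  refine (setIntegral_le_integral i2 (Eventually.of_forall fun x =>
    indicator_nonneg (fun y _ => hg0 y) _)).trans ?_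
  rw [integral_add_right_eq_self (K.indicator g) v, integral_indicator hKc.measurableSet]

lemma bad_le {K : Set E} (hKc : IsCompact K) (hKv : Convex ℝ K) (hKi : (interior K).Nonempty)
    {x₀ : E} {r : ℝ} (hr : 0 < r) (hB : Metric.closedBall x₀ r ⊆ K) {e : E} (he : ‖e‖ = 1)
    {η : ℝ} (hη0 : 0 < η) (hη : η ≤ r) :
    (uniformProbOn K).real {x | x + η • e ∉ K} ≤ d * η / r := by
  have := unif_prob hKc hKi
  set t := η / r with ht
  have ht0 : 0 < t := by positivity
  have ht1 : t ≤ 1 := by rw [ht, div_le_one hr]; exact hη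
  have hmeas : MeasurableSet {x : E | x + η • e ∈ K} :=
    (measurable_id.add_const _) hKc.measurableSet
  have hsub : AffineMap.homothety x₀ (1 - t) '' K ⊆ {x : E | x + η • e ∈ K} ∩ K := by
    rintro _ ⟨k, hk, rfl⟩
    have h1 : x₀ + r • e ∈ K := hB (by
      simp [norm_smul, he, abs_of_pos hr])
    have h2 : x₀ ∈ K := hB (Metric.mem_closedBall_self hr.le)
    constructor
    · have := hKv hk h1 (a := 1 - t) (b := t) (by linarith) ht0.le (by ring)
      simp only [mem_setOf_eq, AffineMap.homothety_apply, vsub_eq_sub, vadd_eq_add]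
      convert this using 1
      have e1 : η = t * r := by rw [ht]; field_simp
      rw [e1]; module
    · have := hKv hk h2 (a := 1 - t) (b := t) (by linarith) ht0.le (by ring)
      simp only [AffineMap.homothety_apply, vsub_eq_sub, vadd_eq_add]
      convert this using 1
      module
  have h1 : ENNReal.ofReal ((1 - t) ^ d) ≤ uniformProbOn K {x : E | x + η • e ∈ K} := by
    rw [uniformProbOn, Measure.smul_apply, Measure.restrict_apply hmeas, smul_eq_mul]
    have h2 := measure_mono (μ := volume) hsub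
    rw [Measure.addHaar_image_homothety, finrank_euclideanSpace_fin,
      abs_of_nonneg (pow_nonneg (by linarith) _)] at h2
    calc _ = (volume K)⁻¹ * (ENNReal.ofReal ((1 - t) ^ d) * volume K) := by
          rw [mul_comm _ (volume K), ← mul_assoc,
            ENNReal.inv_mul_cancel (vol_pos hKi) hKc.measure_lt_top.ne, one_mul]
      _ ≤ _ := mul_le_mul_right h2 _
  have h2 : (1 - t) ^ d ≤ (uniformProbOn K).real {x : E | x + η • e ∈ K} :=
    (ENNReal.ofReal_le_iff_le_toReal (measure_ne_top _ _)).1 h1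
  have h3 := probReal_compl_eq_one_sub (μ := uniformProbOn K) hmeas
  have h4 := one_add_mul_le_pow (a := -t) (by linarith) d
  have h5 : (d : ℝ) * η / r = d * t := by rw [ht]; ring
  change (uniformProbOn K).real {x : E | x + η • e ∈ K}ᶜ ≤ _
  rw [h3, h5]
  rw [← sub_eq_add_neg] at h4
  linarith

lemma sq_le_of_le {a G b L η : ℝ} (hη : 0 < η) (ha0 : 0 ≤ a) (ha : a ≤ 2 * L) (hb : 0 ≤ b)
    (h : η * a ≤ G + b) : a ^ 2 ≤ 4 * G ^ 2 / η ^ 2 + 4 * L * b / η := by
  have hL : 0 ≤ L := by linarith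
  rcases le_total b G with hG | hG
  · have h1 : a ≤ 2 * G / η := by rw [le_div_iff₀ hη]; linarith
    have h2 := pow_le_pow_left₀ ha0 h1 2
    have h3 : (2 * G / η) ^ 2 = 4 * G ^ 2 / η ^ 2 := by ring
    have h4 : 0 ≤ 4 * L * b / η := by positivity
    linarith
  · have h1 : a ≤ 2 * b / η := by rw [le_div_iff₀ hη]; linarith
    have h2 := mul_le_mul ha h1 ha0 (by linarith)
    have h3 : 2 * L * (2 * b / η) = 4 * L * b / η := by ring
    have h4 : 0 ≤ 4 * G ^ 2 / η ^ 2 := by positivity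
    nlinarith

/-- The interpolation inequality for approximate subgradients. -/
lemma interpolation {K : Set E} (hKc : IsCompact K) (hKv : Convex ℝ K)
    (hKi : (interior K).Nonempty) {R : ℝ} (hR : ∀ x ∈ K, ‖x‖ ≤ R) {L : ℝ} (hL0 : 0 ≤ L) :
    ∃ C η₀ : ℝ, 0 ≤ C ∧ 0 < η₀ ∧ ∀ (φ₀ φ₁ : E → ℝ) (T₀ T₁ : E → E) (e₀ e₁ : E → ℝ) (c η : ℝ),
      Continuous φ₀ → Continuous φ₁ → (∀ x y, φ₀ x ≤ φ₀ y + L * ‖x - y‖) →
      (∀ x y, φ₁ x ≤ φ₁ y + L * ‖x - y‖) → (∀ x v, 2 * φ₀ x ≤ φ₀ (x + v) + φ₀ (x - v)) →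
      (∀ x v, 2 * φ₁ x ≤ φ₁ (x + v) + φ₁ (x - v)) → Measurable T₀ → Measurable T₁ →
      (∀ᵐ x ∂(uniformProbOn K), ‖T₀ x‖ ≤ L) → (∀ᵐ x ∂(uniformProbOn K), ‖T₁ x‖ ≤ L) →
      Integrable e₀ (uniformProbOn K) → Integrable e₁ (uniformProbOn K) →
      (∀ x x' : E, ‖x'‖ ≤ R + 1 → φ₀ x + ⟪x' - x, T₀ x⟫ - e₀ x ≤ φ₀ x') →
      (∀ x x' : E, ‖x'‖ ≤ R + 1 → φ₁ x + ⟪x' - x, T₁ x⟫ - e₁ x ≤ φ₁ x') →
      0 < η → η ≤ η₀ →
      ∫ x, ‖T₀ x - T₁ x‖ ^ 2 ∂(uniformProbOn K) ≤
        C * ((∫ x, (φ₀ x - φ₁ x - c) ^ 2 ∂(uniformProbOn K)) / η ^ 2 + η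
          + (∫ x, e₀ x ∂(uniformProbOn K) + ∫ x, e₁ x ∂(uniformProbOn K)) / η) := by
  have := unif_prob hKc hKi
  obtain ⟨x₀, hx₀⟩ := hKi
  obtain ⟨r, hr, hB⟩ := Metric.nhds_basis_closedBall.mem_iff.1 (mem_interior_iff_mem_nhds.1 hx₀)
  have hKi : (interior K).Nonempty := ⟨x₀, hx₀⟩
  set ρ := uniformProbOn K with hρ
  set A := (volume.real K)⁻¹ * volume.real (Metric.closedBall (0 : E) (R + 2)) with hA
  have hA0 : 0 ≤ A := by positivity
  set C₁ := 16 + 4 * L + 8 * L ^ 2 * A + 4 * L ^ 2 * d / r with hC₁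
  have hC₁0 : 0 ≤ C₁ := by positivity
  refine ⟨d * C₁, min 1 r, by positivity, lt_min one_pos hr, ?_⟩
  intro φ₀ φ₁ T₀ T₁ e₀ e₁ c η hc₀ hc₁ hl₀ hl₁ hv₀ hv₁ hT₀ hT₁ hb₀ hb₁ hi₀ hi₁ hs₀ hs₁ hη0 hη
  have hη1 : η ≤ 1 := hη.trans (min_le_left _ _)
  have hηr : η ≤ r := hη.trans (min_le_right _ _)
  have icont : ∀ {f : E → ℝ}, Continuous f → Integrable f ρ := fun {f} hf =>
    (hf.continuousOn.integrableOn_compact hKc).smul_measure (ENNReal.inv_ne_top.2 (vol_pos hKi))
  set g : E → ℝ := fun x => (φ₀ x - φ₁ x - c) ^ 2 with hg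
  have hgc : Continuous g := by fun_prop
  have hg0 : ∀ x, 0 ≤ g x := fun x => sq_nonneg _
  have he0 : ∀ᵐ x ∂ρ, 0 ≤ e₀ x ∧ 0 ≤ e₁ x := (unif_ae_mem hKc).mono fun x hx => by
    have a1 := hs₀ x x (by linarith [hR x hx])
    have a2 := hs₁ x x (by linarith [hR x hx])
    rw [sub_self, inner_zero_left] at a1 a2
    constructor <;> linarith
  have hE0 : 0 ≤ ∫ x, e₀ x ∂ρ + ∫ x, e₁ x ∂ρ :=
    add_nonneg (integral_nonneg_of_ae (he0.mono fun x hx => hx.1))
      (integral_nonneg_of_ae (he0.mono fun x hx => hx.2))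
  have hG0 : 0 ≤ ∫ x, g x ∂ρ := integral_nonneg hg0
  have hin : ∀ e : E, ‖e‖ = 1 → ∀ᵐ x ∂ρ, |⟪T₀ x - T₁ x, e⟫| ≤ 2 * L := fun e he => by
    filter_upwards [hb₀, hb₁] with x h0 h1
    have := abs_real_inner_le_norm (T₀ x - T₁ x) e
    have := norm_sub_le (T₀ x) (T₁ x)
    rw [he] at *
    linarith
  have iin : ∀ e : E, ‖e‖ = 1 → Integrable (fun x => ⟪T₀ x - T₁ x, e⟫ ^ 2) ρ := fun e he => by
    refine integrable_of_bdd (((hT₀.sub hT₁).inner measurable_const).pow_const 2)
      (C := (2 * L) ^ 2) ((hin e he).mono fun x hx => ?_)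
    rw [abs_pow]
    exact pow_le_pow_left₀ (abs_nonneg _) hx 2
  have dir : ∀ e : E, ‖e‖ = 1 → ∫ x, ⟪T₀ x - T₁ x, e⟫ ^ 2 ∂ρ ≤
      C₁ * ((∫ x, g x ∂ρ) / η ^ 2 + η + (∫ x, e₀ x ∂ρ + ∫ x, e₁ x ∂ρ) / η) := by
    intro e he
    set v := η • e with hv
    have hvn : ‖v‖ = η := by rw [hv, norm_smul, he, Real.norm_eq_abs, abs_of_pos hη0, mul_one]
    set Δ₀ : E → ℝ := fun x => φ₀ (x + v) + φ₀ (x - v) - 2 * φ₀ x with hΔ₀
    set Δ₁ : E → ℝ := fun x => φ₁ (x + v) + φ₁ (x - v) - 2 * φ₁ x with hΔ₁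
    have hmeas : MeasurableSet {x : E | x + v ∉ K} :=
      ((measurable_id.add_const _) hKc.measurableSet).compl
    obtain ⟨is1, is2⟩ := shift_le hKc hgc hg0 v
    have j1 : Integrable (fun x => K.indicator g (x + v)) ρ :=
      is1.restrict.smul_measure (ENNReal.inv_ne_top.2 (vol_pos hKi))
    have j2 : Integrable g ρ := icont hgc
    have j3 : Integrable Δ₀ ρ := icont (by fun_prop)
    have j4 : Integrable Δ₁ ρ := icont (by fun_prop)
    have j5 : Integrable ({x : E | x + v ∉ K}.indicator fun _ => (1 : ℝ)) ρ :=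
      (integrable_const _).indicator hmeas
    have k1 : ∫ x, K.indicator g (x + v) ∂ρ ≤ ∫ x, g x ∂ρ := by
      rw [hρ, unif_integral, unif_integral]
      exact mul_le_mul_of_nonneg_left is2 (by positivity)
    have k2 : ∀ {φ : E → ℝ}, Continuous φ → (∀ x y, φ x ≤ φ y + L * ‖x - y‖) →
        (∀ x v, 2 * φ x ≤ φ (x + v) + φ (x - v)) →
        ∫ x, (φ (x + v) + φ (x - v) - 2 * φ x) ∂ρ ≤ L * η ^ 2 * A := fun {φ} h1 h2 h3 => by
      rw [hρ, unif_integral]
      have := second_diff hKc hR h1 hL0 h2 (v := v) (hvn ▸ hη1) (fun x => h3 x v)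
      rw [hvn] at this
      refine (mul_le_mul_of_nonneg_left this (by positivity)).trans (le_of_eq ?_)
      rw [hA]; ring
    have k3 : ∫ x, Δ₀ x ∂ρ ≤ L * η ^ 2 * A := k2 hc₀ hl₀ hv₀
    have k4 : ∫ x, Δ₁ x ∂ρ ≤ L * η ^ 2 * A := k2 hc₁ hl₁ hv₁
    have k5 : ∫ x, ({x : E | x + v ∉ K}.indicator fun _ => (1 : ℝ)) x ∂ρ ≤ d * η / r := by
      rw [integral_indicator hmeas, setIntegral_const, smul_eq_mul, mul_one]
      exact bad_le hKc hKv hKi hr hB he hη0 hηr
    have pt : ∀ᵐ x ∂ρ, ⟪T₀ x - T₁ x, e⟫ ^ 2 ≤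
        8 / η ^ 2 * K.indicator g (x + v) + 8 / η ^ 2 * g x + 4 * L / η * Δ₀ x + 4 * L / η * Δ₁ x
          + 4 * L / η * e₀ x + 4 * L / η * e₁ x
          + 4 * L ^ 2 * ({x : E | x + v ∉ K}.indicator (fun _ => (1 : ℝ)) x) := by
      filter_upwards [unif_ae_mem hKc, he0, hin e he] with x hx hxe hxa
      have hxR := hR x hx
      have n1 : ‖x + v‖ ≤ R + 1 := (norm_add_le _ _).trans (by rw [hvn]; linarith)
      have n2 : ‖x - v‖ ≤ R + 1 := (norm_sub_le _ _).trans (by rw [hvn]; linarith)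
      have d0 : 0 ≤ Δ₀ x := by simp only [hΔ₀]; linarith [hv₀ x v]
      have d1 : 0 ≤ Δ₁ x := by simp only [hΔ₁]; linarith [hv₁ x v]
      have b0 : 0 ≤ Δ₀ x + Δ₁ x + e₀ x + e₁ x := by linarith [hxe.1, hxe.2]
      have b1 : 0 ≤ 4 * L / η * (Δ₀ x + Δ₁ x + e₀ x + e₁ x) := by positivity
      by_cases hxv : x + v ∈ K
      · rw [indicator_of_mem hxv, indicator_of_notMem (by simpa using hxv)]
        have a1 := hs₀ x (x + v) n1
        have a2 := hs₀ x (x - v) n2
        have a3 := hs₁ x (x + v) n1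
        have a4 := hs₁ x (x - v) n2
        rw [add_sub_cancel_left] at a1 a3
        rw [sub_sub_cancel_left, inner_neg_left] at a2 a4
        have a5 : η * ⟪T₀ x - T₁ x, e⟫ = ⟪v, T₀ x⟫ - ⟪v, T₁ x⟫ := by
          rw [← inner_sub_right, hv, inner_smul_left, real_inner_comm]; simp
        set p := φ₀ (x + v) - φ₁ (x + v) - c with hp
        set q := φ₀ x - φ₁ x - c with hq
        have a6 : η * |⟪T₀ x - T₁ x, e⟫| ≤ (|p| + |q|) + (Δ₀ x + Δ₁ x + e₀ x + e₁ x) := by
          rw [← abs_of_pos hη0, ← abs_mul, a5, abs_le]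
          have := le_abs_self p
          have := neg_abs_le p
          have := le_abs_self q
          have := neg_abs_le q
          simp only [hΔ₀, hΔ₁] at *
          constructor <;> linarith
        have a7 := sq_le_of_le hη0 (abs_nonneg _) hxa b0 a6
        rw [sq_abs] at a7
        have a8 : 4 * (|p| + |q|) ^ 2 ≤ 8 * p ^ 2 + 8 * q ^ 2 := by
          nlinarith [sq_nonneg (|p| - |q|), sq_abs p, sq_abs q]
        have a9 := div_le_div_of_nonneg_right a8 (sq_nonneg η)
        have e1 : g (x + v) = p ^ 2 := rfl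
        have e2 : g x = q ^ 2 := rfl
        rw [e1, e2]
        have e3 : (8 * p ^ 2 + 8 * q ^ 2) / η ^ 2 = 8 / η ^ 2 * p ^ 2 + 8 / η ^ 2 * q ^ 2 := by ring
        have e4 : 4 * L * (Δ₀ x + Δ₁ x + e₀ x + e₁ x) / η
            = 4 * L / η * (Δ₀ x + Δ₁ x + e₀ x + e₁ x) := by ring
        linarith
      · rw [indicator_of_notMem hxv, indicator_of_mem (by simpa using hxv)]
        have a1 := pow_le_pow_left₀ (abs_nonneg _) hxa 2
        rw [sq_abs] at a1
        have a2 : 0 ≤ 8 / η ^ 2 * g x := mul_nonneg (by positivity) (hg0 x)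
        linarith
    have u1 := (j1.const_mul (8 / η ^ 2)).add (j2.const_mul (8 / η ^ 2))
    have u2 := u1.add (j3.const_mul (4 * L / η))
    have u3 := u2.add (j4.const_mul (4 * L / η))
    have u4 := u3.add (hi₀.const_mul (4 * L / η))
    have u5 := u4.add (hi₁.const_mul (4 * L / η))
    have u6 := u5.add (j5.const_mul (4 * L ^ 2))
    have main := integral_mono_ae (iin e he) u6 pt
    rw [integral_add' u5 (j5.const_mul _), integral_add' u4 (hi₁.const_mul _),
      integral_add' u3 (hi₀.const_mul _), integral_add' u2 (j4.const_mul _),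
      integral_add' u1 (j3.const_mul _), integral_add' (j1.const_mul _) (j2.const_mul _)] at main
    simp only [integral_const_mul] at main
    have w1 := mul_le_mul_of_nonneg_left k1 (show 0 ≤ 8 / η ^ 2 by positivity)
    have w3 := mul_le_mul_of_nonneg_left k3 (show 0 ≤ 4 * L / η by positivity)
    have w4 := mul_le_mul_of_nonneg_left k4 (show 0 ≤ 4 * L / η by positivity)
    have w5 := mul_le_mul_of_nonneg_left k5 (show 0 ≤ 4 * L ^ 2 by positivity)
    set X := (∫ x, g x ∂ρ) / η ^ 2 with hX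
    set Z := (∫ x, e₀ x ∂ρ + ∫ x, e₁ x ∂ρ) / η with hZ
    have hX0 : 0 ≤ X := by positivity
    have hZ0 : 0 ≤ Z := by positivity
    have z1 : 8 / η ^ 2 * ∫ x, g x ∂ρ = 8 * X := by rw [hX]; ring
    have z2 : 4 * L / η * ∫ x, e₀ x ∂ρ + 4 * L / η * ∫ x, e₁ x ∂ρ = 4 * L * Z := by
      rw [hZ]; ring
    have z3 : 4 * L / η * (L * η ^ 2 * A) = 4 * L ^ 2 * A * η := by field_simp
    have z4 : 4 * L ^ 2 * (d * η / r) = 4 * L ^ 2 * d / r * η := by ring
    have y1 : 16 * X ≤ C₁ * X := mul_le_mul_of_nonneg_right (by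
      have : 0 ≤ 4 * L + 8 * L ^ 2 * A + 4 * L ^ 2 * d / r := by positivity
      linarith) hX0
    have y2 : 4 * L * Z ≤ C₁ * Z := mul_le_mul_of_nonneg_right (by
      have : 0 ≤ 16 + 8 * L ^ 2 * A + 4 * L ^ 2 * d / r := by positivity
      linarith) hZ0
    have y3 : (8 * L ^ 2 * A + 4 * L ^ 2 * d / r) * η ≤ C₁ * η := mul_le_mul_of_nonneg_right (by
      linarith) hη0.le
    linarith
  have e1 : ∀ x, ‖T₀ x - T₁ x‖ ^ 2 = ∑ i, ⟪T₀ x - T₁ x, EuclideanSpace.single i (1 : ℝ)⟫ ^ 2 :=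
    fun x => by
      rw [EuclideanSpace.real_norm_sq_eq]
      refine Finset.sum_congr rfl fun i _ => ?_
      rw [EuclideanSpace.inner_single_right]; simp
  have hn : ∀ i : Fin d, ‖EuclideanSpace.single i (1 : ℝ)‖ = 1 := fun i => by simp
  simp only [e1]
  rw [integral_finsetSum _ fun i _ => iin _ (hn i)]
  refine (Finset.sum_le_sum fun i _ => dir _ (hn i)).trans (le_of_eq ?_)
  simp only [Finset.sum_const, Finset.card_univ, Fintype.card_fin, nsmul_eq_mul]
  ring

end Crest.Agent.R82
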