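import Mathlib
import Crest.Prelude.Def_QuadraticTransport

/-!
Semi-discrete duality and box volumes for the sharpness example of row 82.
-/

set_option autoImplicit false

open MeasureTheory Set
open scoped ENNReal NNReal
open Crest.AnalysisR.OT

namespace Crest.Agent.R82S

set_option linter.unusedSectionVars false

section Duality

variable {E : Type*} [NormedAddCommGroup E] [MeasurableSpace E] [BorelSpace E]
  [SecondCountableTopology E]

lemma cost_add {ρ μ : Measure E} {S : E → E} (hS : Measurable S) (hmap : ρ.map S = μ)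
    {W : E → ℝ≥0∞} (hW : Measurable W) :
    ∫⁻ x, (‖x - S x‖ₑ ^ 2 + W (S x)) ∂ρ = (∫⁻ x, ‖x - S x‖ₑ ^ 2 ∂ρ) + ∫⁻ y, W y ∂μ := by
  rw [lintegral_add_right (g := fun x => W (S x)) _ (hW.comp hS), ← hmap, lintegral_map hW hS]

lemma ae_mem_of_map {ρ μ : Measure E} {S : E → E} (hS : Measurable S) (hmap : ρ.map S = μ)
    {Y : Set E} (hY : MeasurableSet Y) (hμ : μ Yᶜ = 0) : ∀ᵐ x ∂ρ, S x ∈ Y := by
  rw [← hmap, Measure.map_apply hS hY.compl] at hμ
  exact hμ

/-- A map minimising `‖x - y‖² + W y` over the support is optimal. -/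
lemma isOptimalMap_of_dual {ρ : Measure E} {T : E → E} (hT : Measurable T)
    {Y : Set E} (hY : MeasurableSet Y) (hTY : ∀ x, T x ∈ Y)
    {W : E → ℝ≥0∞} (hW : Measurable W) (hWfin : ∫⁻ y, W y ∂(ρ.map T) ≠ ⊤)
    (hmin : ∀ x, ∀ y ∈ Y, ‖x - T x‖ₑ ^ 2 + W (T x) ≤ ‖x - y‖ₑ ^ 2 + W y) :
    IsOptimalMap ρ (ρ.map T) T := by
  refine ⟨hT, rfl, fun S hS hmap => ?_⟩
  have hμ : (ρ.map T) Yᶜ = 0 := by
    rw [Measure.map_apply hT hY.compl]
    have : T ⁻¹' Yᶜ = ∅ := by ext x; simp [hTY x]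
    rw [this, measure_empty]
  have h1 : ∫⁻ x, (‖x - T x‖ₑ ^ 2 + W (T x)) ∂ρ ≤ ∫⁻ x, (‖x - S x‖ₑ ^ 2 + W (S x)) ∂ρ := by
    refine lintegral_mono_ae ?_
    filter_upwards [ae_mem_of_map hS hmap hY hμ] with x hx using hmin x _ hx
  rw [cost_add hT rfl hW, cost_add hS hmap hW] at h1
  exact (ENNReal.add_le_add_iff_right hWfin).1 h1

/-- Every optimal map also minimises `‖x - y‖² + W y` almost everywhere. -/
lemma ae_eq_of_optimal {ρ : Measure E} {T : E → E} (hT : Measurable T)
    {Y : Set E} (hY : MeasurableSet Y) (hTY : ∀ x, T x ∈ Y)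
    {W : E → ℝ≥0∞} (hW : Measurable W)
    (hfin : ∫⁻ x, (‖x - T x‖ₑ ^ 2 + W (T x)) ∂ρ ≠ ⊤)
    (hmin : ∀ x, ∀ y ∈ Y, ‖x - T x‖ₑ ^ 2 + W (T x) ≤ ‖x - y‖ₑ ^ 2 + W y)
    {S : E → E} (hS : IsOptimalMap ρ (ρ.map T) S) :
    ∀ᵐ x ∂ρ, S x ∈ Y ∧ ‖x - T x‖ₑ ^ 2 + W (T x) = ‖x - S x‖ₑ ^ 2 + W (S x) := by
  obtain ⟨hSm, hmap, hopt⟩ := hS
  have hμ : (ρ.map T) Yᶜ = 0 := by
    rw [Measure.map_apply hT hY.compl]
    have : T ⁻¹' Yᶜ = ∅ := by ext x; simp [hTY x]
    rw [this, measure_empty]
  have hae := ae_mem_of_map hSm hmap hY hμ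
  have h2 : (fun x => ‖x - T x‖ₑ ^ 2 + W (T x)) =ᵐ[ρ] fun x => ‖x - S x‖ₑ ^ 2 + W (S x) := by
    refine ae_eq_of_ae_le_of_lintegral_le ?_ hfin ?_ ?_
    · filter_upwards [hae] with x hx using hmin x _ hx
    · exact (((measurable_id.sub hSm).enorm.pow_const 2).add (hW.comp hSm)).aemeasurable
    · rw [cost_add hT rfl hW, cost_add hSm hmap hW]
      exact add_le_add (hopt T hT rfl) le_rfl
  filter_upwards [hae, h2] with x hx hx2 using ⟨hx, hx2⟩

/-- The image of a finite measure under a map with three values. -/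
lemma map_three {ρ : Measure E} [IsFiniteMeasure ρ] {T : E → E} (hT : Measurable T)
    (y : Fin 3 → E) (hy : Function.Injective y) (hTY : ∀ x, ∃ i, T x = y i)
    (hpos : ∀ i, ρ (T ⁻¹' {y i}) ≠ 0) : IsThreeAtomic (ρ.map T) := by
  refine ⟨y, hy, fun i => (ρ (T ⁻¹' {y i})).toReal,
    fun i => ENNReal.toReal_pos (hpos i) (measure_ne_top _ _), ?_⟩
  have hm : ∀ i, MeasurableSet (T ⁻¹' {y i}) := fun i => hT (measurableSet_singleton _)
  have hdisj : Pairwise (Function.onFun Disjoint fun i => T ⁻¹' {y i}) := by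
    intro i j hij
    refine Disjoint.preimage _ ?_
    simpa using fun h => hij (hy h)
  have hun : (⋃ i, T ⁻¹' {y i}) = univ := by
    ext x; simpa using hTY x
  have h1 : ρ = ∑ i, ρ.restrict (T ⁻¹' {y i}) := by
    rw [← Measure.sum_fintype, ← Measure.restrict_iUnion hdisj hm, hun, Measure.restrict_univ]
  conv_lhs => rw [h1]
  rw [← Measure.mapₗ_apply_of_measurable hT, map_sum]
  refine Finset.sum_congr rfl fun i _ => ?_
  rw [Measure.mapₗ_apply_of_measurable hT, ENNReal.ofReal_toReal (measure_ne_top _ _)]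
  have : T =ᵐ[ρ.restrict (T ⁻¹' {y i})] fun _ => y i := by
    filter_upwards [ae_restrict_mem (hm i)] with x hx using hx
  rw [Measure.map_congr this, Measure.map_const, Measure.restrict_apply_univ]

end Duality

section Boxes

variable {d : ℕ}

/-- the cube -/
abbrev cube (d : ℕ) : Set (EuclideanSpace ℝ (Fin d)) := {x | ∀ i, |x i| ≤ 1}

lemma volume_box (lo hi : Fin d → ℝ) :
    volume {x : EuclideanSpace ℝ (Fin d) | ∀ i, lo i ≤ x i ∧ x i ≤ hi i} =
      ∏ i, ENNReal.ofReal (hi i - lo i) := by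
  rw [← Real.volume_Icc_pi, ← (PiLp.volume_preserving_ofLp (Fin d)).measure_preimage
    measurableSet_Icc.nullMeasurableSet]
  congr 1
  ext x
  simp [Pi.le_def, forall_and]

lemma measurableSet_box (lo hi : Fin d → ℝ) :
    MeasurableSet {x : EuclideanSpace ℝ (Fin d) | ∀ i, lo i ≤ x i ∧ x i ≤ hi i} := by
  refine IsClosed.measurableSet ?_
  simp only [ofPred_forall, ofPred_and]
  exact isClosed_iInter fun i => (isClosed_le continuous_const (by fun_prop)).inter
    (isClosed_le (by fun_prop) continuous_const)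

lemma cube_eq : cube d = {x : EuclideanSpace ℝ (Fin d) | ∀ i, (fun _ => (-1 : ℝ)) i ≤ x i ∧
    x i ≤ (fun _ => (1 : ℝ)) i} := by
  ext x; simp [abs_le]

lemma measurableSet_cube : MeasurableSet (cube d) := by
  rw [cube_eq]; exact measurableSet_box _ _

lemma volume_cube : volume (cube d) = ∏ _i : Fin d, ENNReal.ofReal 2 := by
  rw [cube_eq, volume_box]; norm_num

lemma volume_cube_ne_zero : volume (cube d) ≠ 0 := by
  rw [volume_cube]; simp

lemma volume_cube_ne_top : volume (cube d) ≠ ⊤ := by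
  rw [volume_cube]; simp

instance : IsProbabilityMeasure (uniformProbOn (cube d)) := by
  constructor
  simp only [uniformProbOn, Measure.smul_apply, Measure.restrict_apply_univ, smul_eq_mul]
  exact ENNReal.inv_mul_cancel volume_cube_ne_zero volume_cube_ne_top

lemma rho_apply {s : Set (EuclideanSpace ℝ (Fin d))} (hs : MeasurableSet s) :
    uniformProbOn (cube d) s = (volume (cube d))⁻¹ * volume (s ∩ cube d) := by
  simp only [uniformProbOn, Measure.smul_apply, Measure.restrict_apply hs, smul_eq_mul]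

lemma ae_mem_cube : ∀ᵐ x ∂(uniformProbOn (cube d)), x ∈ cube d := by
  unfold uniformProbOn
  exact Measure.ae_smul_measure (ae_restrict_mem measurableSet_cube) _

/-- mass of a box inside the cube -/
lemma rho_box (lo hi : Fin d → ℝ) (hlo : ∀ i, -1 ≤ lo i) (hhi : ∀ i, hi i ≤ 1) :
    uniformProbOn (cube d) {x : EuclideanSpace ℝ (Fin d) | ∀ i, lo i ≤ x i ∧ x i ≤ hi i} =
      ∏ i, ENNReal.ofReal ((hi i - lo i) / 2) := by
  rw [rho_apply (measurableSet_box _ _), inter_eq_left.2, volume_box]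
  · have : ∀ i, ENNReal.ofReal (hi i - lo i) =
        ENNReal.ofReal 2 * ENNReal.ofReal ((hi i - lo i) / 2) := by
      intro i
      rw [← ENNReal.ofReal_mul (by norm_num)]; congr 1; ring
    simp only [this]
    rw [Finset.prod_mul_distrib, ← volume_cube, ← mul_assoc,
      ENNReal.inv_mul_cancel volume_cube_ne_zero volume_cube_ne_top, one_mul]
  · intro x hx i
    exact abs_le.2 ⟨(hlo i).trans (hx i).1, (hx i).2.trans (hhi i)⟩

lemma rho_pos {U : Set (EuclideanSpace ℝ (Fin d))} (hU : IsOpen U)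
    {x : EuclideanSpace ℝ (Fin d)} (hx : x ∈ U) (hxc : ∀ i, |x i| < 1) :
    uniformProbOn (cube d) U ≠ 0 := by
  rw [rho_apply hU.measurableSet]
  refine mul_ne_zero (ENNReal.inv_ne_zero.2 volume_cube_ne_top) ?_
  have hV : IsOpen {x : EuclideanSpace ℝ (Fin d) | ∀ i, |x i| < 1} := by
    simp only [ofPred_forall]
    exact isOpen_iInter_of_finite fun i => isOpen_lt (by fun_prop) continuous_const
  have := (hU.inter hV).measure_pos volume ⟨x, hx, hxc⟩
  refine (lt_of_lt_of_le this (measure_mono ?_)).ne'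
  exact inter_subset_inter_right _ fun y hy i => (hy i).le

/-- reflection of one coordinate -/
noncomputable def refl (j : Fin d) : EuclideanSpace ℝ (Fin d) ≃ₗᵢ[ℝ] EuclideanSpace ℝ (Fin d) :=
  LinearIsometryEquiv.piLpCongrRight 2 fun i =>
    if i = j then LinearIsometryEquiv.neg ℝ else LinearIsometryEquiv.refl ℝ ℝ

lemma refl_apply (j i : Fin d) (x : EuclideanSpace ℝ (Fin d)) :
    refl j x i = if i = j then - x i else x i := by
  simp only [refl, LinearIsometryEquiv.piLpCongrRight_apply]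
  split_ifs with h <;> simp [h]

lemma refl_preserving (j : Fin d) :
    MeasurePreserving (refl j) (uniformProbOn (cube d)) (uniformProbOn (cube d)) := by
  have h := (refl j).measurePreserving.restrict_preimage (measurableSet_cube (d := d))
  have e : refl j ⁻¹' cube d = cube d := by
    ext x
    simp only [mem_preimage, mem_ofPred_eq, refl_apply]
    refine forall_congr' fun i => ?_
    split_ifs <;> simp
  rw [e] at h
  exact h.smul_measure _

end Boxes

end Crest.Agent.R82S
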