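import Crest.Agent.R82.SharpA

/-!
The three-atom example.
-/

set_option autoImplicit false

open MeasureTheory Set
open scoped ENNReal NNReal
open Crest.AnalysisR.OT

namespace Crest.Agent.R82S

set_option linter.unusedSectionVars false

variable {d : ℕ}

/-- coordinate vector -/
noncomputable abbrev pt (i : Fin d) (a : ℝ) : EuclideanSpace ℝ (Fin d) := EuclideanSpace.single i a

/-- the explicit optimal map -/
noncomputable def Tm (i0 i1 : Fin d) (δ s : ℝ) (x : EuclideanSpace ℝ (Fin d)) :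
    EuclideanSpace ℝ (Fin d) :=
  if |x i0| ≤ δ - s * x i1 then pt i1 (-s) else if 0 < x i0 then pt i0 1 else pt i0 (-1)

/-- the three sites -/
def sites (i0 i1 : Fin d) (s : ℝ) : Set (EuclideanSpace ℝ (Fin d)) :=
  {pt i1 (-s), pt i0 1, pt i0 (-1)}

/-- dual weight -/
noncomputable def wt (i0 : Fin d) (δ : ℝ) (y : EuclideanSpace ℝ (Fin d)) : ℝ≥0∞ :=
  ENNReal.ofReal ((1 - δ ^ 2 - 2 * δ) * (1 - (y i0) ^ 2))

lemma measurable_wt (i0 : Fin d) (δ : ℝ) : Measurable (wt i0 δ) := by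
  unfold wt; fun_prop

lemma measurable_Tm (i0 i1 : Fin d) (δ s : ℝ) : Measurable (Tm i0 i1 δ s) := by
  unfold Tm
  refine Measurable.ite (measurableSet_le (by fun_prop) (by fun_prop)) measurable_const ?_
  exact Measurable.ite (measurableSet_lt (by fun_prop) (by fun_prop)) measurable_const
    measurable_const

lemma measurableSet_sites (i0 i1 : Fin d) (s : ℝ) : MeasurableSet (sites i0 i1 s) := by
  unfold sites
  exact (Set.toFinite _).measurableSet

lemma Tm_mem (i0 i1 : Fin d) (δ s : ℝ) (x : EuclideanSpace ℝ (Fin d)) :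
    Tm i0 i1 δ s x ∈ sites i0 i1 s := by
  unfold Tm sites; split_ifs <;> simp

lemma norm_sub_pt (x : EuclideanSpace ℝ (Fin d)) (i : Fin d) (a : ℝ) :
    ‖x - pt i a‖ ^ 2 = ‖x‖ ^ 2 - 2 * (a * x i) + a ^ 2 := by
  rw [norm_sub_sq_real, EuclideanSpace.inner_single_right]
  simp

lemma enorm_sq (v : EuclideanSpace ℝ (Fin d)) : ‖v‖ₑ ^ 2 = ENNReal.ofReal (‖v‖ ^ 2) := by
  rw [ENNReal.ofReal_pow (norm_nonneg _), ofReal_norm]

section
variable {i0 i1 : Fin d} (h01 : i0 ≠ i1) {δ s : ℝ} (hδ : 0 < δ) (hδ' : δ ≤ 1 / 4)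
  (hs : s ^ 2 = δ ^ 2)
include h01 hδ hδ' hs

lemma costB (x : EuclideanSpace ℝ (Fin d)) :
    ‖x - pt i1 (-s)‖ₑ ^ 2 + wt i0 δ (pt i1 (-s)) =
      ENNReal.ofReal (‖x‖ ^ 2 + 1 - 2 * (δ - s * x i1)) := by
  have hk : 0 ≤ 1 - δ ^ 2 - 2 * δ := by nlinarith
  rw [enorm_sq, wt, ← ENNReal.ofReal_add (by positivity) (by simp [h01, hk]), norm_sub_pt]
  congr 1
  simp [h01]
  nlinarith

omit h01 hδ hδ' hs in
lemma costC (x : EuclideanSpace ℝ (Fin d)) :
    ‖x - pt i0 1‖ₑ ^ 2 + wt i0 δ (pt i0 1) = ENNReal.ofReal (‖x‖ ^ 2 + 1 - 2 * x i0) := by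
  rw [enorm_sq, wt, norm_sub_pt]
  simp
  congr 1
  ring

omit h01 hδ hδ' hs in
lemma costA (x : EuclideanSpace ℝ (Fin d)) :
    ‖x - pt i0 (-1)‖ₑ ^ 2 + wt i0 δ (pt i0 (-1)) = ENNReal.ofReal (‖x‖ ^ 2 + 1 + 2 * x i0) := by
  rw [enorm_sq, wt, norm_sub_pt]
  simp
  congr 1
  ring

lemma costT (x : EuclideanSpace ℝ (Fin d)) :
    ‖x - Tm i0 i1 δ s x‖ₑ ^ 2 + wt i0 δ (Tm i0 i1 δ s x) =
      ENNReal.ofReal (‖x‖ ^ 2 + 1 - 2 * max (δ - s * x i1) |x i0|) := by
  unfold Tm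
  split_ifs with h1 h2
  · rw [costB h01 hδ hδ' hs, max_eq_left h1]
  · rw [costC, max_eq_right (not_le.1 h1).le, abs_of_pos h2]
  · rw [costA, max_eq_right (not_le.1 h1).le, abs_of_nonpos (not_lt.1 h2)]
    congr 1; ring

lemma Tm_min (x : EuclideanSpace ℝ (Fin d)) (y : EuclideanSpace ℝ (Fin d))
    (hy : y ∈ sites i0 i1 s) :
    ‖x - Tm i0 i1 δ s x‖ₑ ^ 2 + wt i0 δ (Tm i0 i1 δ s x) ≤ ‖x - y‖ₑ ^ 2 + wt i0 δ y := by
  rw [costT h01 hδ hδ' hs]
  have h1 := le_max_left (δ - s * x i1) |x i0|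
  have h2 := le_max_right (δ - s * x i1) |x i0|
  have h3 := le_abs_self (x i0)
  have h4 := neg_abs_le (x i0)
  rcases hy with rfl | rfl | rfl
  · rw [costB h01 hδ hδ' hs]; exact ENNReal.ofReal_le_ofReal (by linarith)
  · rw [costC]; exact ENNReal.ofReal_le_ofReal (by linarith)
  · rw [costA]; exact ENNReal.ofReal_le_ofReal (by linarith)

omit h01 hδ hδ' hs in
lemma norm_sq_le_of_cube {x : EuclideanSpace ℝ (Fin d)} (hx : x ∈ cube d) : ‖x‖ ^ 2 ≤ d := by
  rw [EuclideanSpace.real_norm_sq_eq]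
  calc ∑ i, x i ^ 2 ≤ ∑ _i : Fin d, (1 : ℝ) := Finset.sum_le_sum fun i _ => by
        have := hx i
        rw [← sq_abs]; nlinarith [abs_nonneg (x i)]
    _ = d := by simp

lemma cost_fin : ∫⁻ x, (‖x - Tm i0 i1 δ s x‖ₑ ^ 2 + wt i0 δ (Tm i0 i1 δ s x))
    ∂(uniformProbOn (cube d)) ≠ ⊤ := by
  refine ne_top_of_le_ne_top (b := ∫⁻ _x, ENNReal.ofReal (d + 1) ∂(uniformProbOn (cube d)))
    (by simp) (lintegral_mono_ae ?_)
  filter_upwards [ae_mem_cube] with x hx
  rw [costT h01 hδ hδ' hs]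
  refine ENNReal.ofReal_le_ofReal ?_
  have := norm_sq_le_of_cube hx
  have h2 := le_max_right (δ - s * x i1) |x i0|
  have := abs_nonneg (x i0)
  linarith

lemma Tm_optimal : IsOptimalMap (uniformProbOn (cube d))
    ((uniformProbOn (cube d)).map (Tm i0 i1 δ s)) (Tm i0 i1 δ s) := by
  refine isOptimalMap_of_dual (measurable_Tm _ _ _ _) (measurableSet_sites i0 i1 s)
    (Tm_mem _ _ _ _) (measurable_wt i0 δ) ?_ (Tm_min h01 hδ hδ' hs)
  have := cost_fin h01 hδ hδ' hs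
  rw [cost_add (measurable_Tm _ _ _ _) rfl (measurable_wt i0 δ)] at this
  exact (ENNReal.add_ne_top.1 this).2

lemma Tm_prob : IsProbabilityOn (cube d) ((uniformProbOn (cube d)).map (Tm i0 i1 δ s)) := by
  refine ⟨Measure.isProbabilityMeasure_map (measurable_Tm _ _ _ _).aemeasurable, ?_⟩
  rw [Measure.map_apply (measurable_Tm _ _ _ _) measurableSet_cube.compl]
  have hs1 : |s| ≤ 1 := by
    rw [← sq_le_one_iff_abs_le_one]; nlinarith
  have : Tm i0 i1 δ s ⁻¹' (cube d)ᶜ = ∅ := by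
    ext x
    simp only [mem_preimage, mem_compl_iff, mem_empty_iff_false, iff_false, not_not]
    intro i
    rcases Tm_mem i0 i1 δ s x with h | h | h <;> rw [h] <;>
      simp only [PiLp.single_apply] <;> split_ifs <;> simp [hs1]
  rw [this, measure_empty]

lemma Tm_three : IsThreeAtomic ((uniformProbOn (cube d)).map (Tm i0 i1 δ s)) := by
  have hs1 : |s| ≤ 1 / 4 := by
    have : |s| = δ := by
      rw [← abs_of_pos hδ]; exact sq_eq_sq_iff_abs_eq_abs _ _ |>.1 hs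
    linarith
  have hBC : pt i1 (-s) ≠ pt i0 1 := fun h => by
    have := congrArg (fun v : EuclideanSpace ℝ (Fin d) => v i0) h
    simp [h01] at this
  have hBA : pt i1 (-s) ≠ pt i0 (-1) := fun h => by
    have := congrArg (fun v : EuclideanSpace ℝ (Fin d) => v i0) h
    simp [h01] at this
  have hCA : pt i0 (1 : ℝ) ≠ pt i0 (-1) := fun h => by
    have := congrArg (fun v : EuclideanSpace ℝ (Fin d) => v i0) h
    simp at this
    norm_num at this
  refine map_three (measurable_Tm _ _ _ _) ![pt i1 (-s), pt i0 1, pt i0 (-1)] ?_ ?_ ?_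
  · intro i j hij
    fin_cases i <;> fin_cases j <;> simp_all [eq_comm]
  · intro x
    rcases Tm_mem i0 i1 δ s x with h | h | h
    exacts [⟨0, h⟩, ⟨1, h⟩, ⟨2, h⟩]
  · intro i
    fin_cases i
    · have hU : IsOpen {x : EuclideanSpace ℝ (Fin d) | |x i0| < δ - s * x i1} :=
        isOpen_lt (by fun_prop) (by fun_prop)
      refine fun h => rho_pos hU (x := 0) (by simpa using hδ) (by simp) (measure_mono_null ?_ h)
      intro x hx
      simp only [mem_ofPred_eq] at hx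
      simp [Tm, hx.le]
    · have hU : IsOpen ({x : EuclideanSpace ℝ (Fin d) | δ - s * x i1 < |x i0|} ∩
          {x | 0 < x i0}) :=
        (isOpen_lt (by fun_prop) (by fun_prop)).inter (isOpen_lt (by fun_prop) (by fun_prop))
      refine fun h => rho_pos hU (x := pt i0 (1 / 2)) ?_ ?_ (measure_mono_null ?_ h)
      · simp [h01.symm]
        linarith
      · intro i
        simp only [PiLp.single_apply]
        split_ifs
        · rw [abs_of_pos (by norm_num)]; norm_num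
        · simp
      · rintro x ⟨hx, hx'⟩
        simp only [mem_ofPred_eq] at hx hx'
        simp [Tm, not_le.2 hx, hx']
    · have hU : IsOpen ({x : EuclideanSpace ℝ (Fin d) | δ - s * x i1 < |x i0|} ∩
          {x | x i0 < 0}) :=
        (isOpen_lt (by fun_prop) (by fun_prop)).inter (isOpen_lt (by fun_prop) (by fun_prop))
      refine fun h => rho_pos hU (x := pt i0 (-(1 / 2))) ?_ ?_ (measure_mono_null ?_ h)
      · simp [h01.symm]
        linarith
      · intro i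
        simp only [PiLp.single_apply]
        split_ifs
        · rw [abs_neg, abs_of_pos (by norm_num)]; norm_num
        · simp
      · rintro x ⟨hx, hx'⟩
        simp only [mem_ofPred_eq] at hx hx'
        simp [Tm, not_le.2 hx, not_lt.2 hx'.le]

omit h01 hδ hδ' hs in
lemma cost_nonneg (x : EuclideanSpace ℝ (Fin d)) : 0 ≤ ‖x‖ ^ 2 + 1 - 2 * |x i0| := by
  have h : |x i0| ≤ ‖x‖ := by simpa using PiLp.norm_apply_le x i0
  nlinarith [abs_nonneg (x i0), sq_nonneg (‖x‖ - 1)]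

/-- on the strict `B` region every optimal map takes the value `B` -/
lemma opt_eq_B {S : EuclideanSpace ℝ (Fin d) → EuclideanSpace ℝ (Fin d)}
    (hS : IsOptimalMap (uniformProbOn (cube d))
      ((uniformProbOn (cube d)).map (Tm i0 i1 δ s)) S) :
    ∀ᵐ x ∂(uniformProbOn (cube d)), (|x i0| < δ - s * x i1 → S x = pt i1 (-s)) ∧
      (δ - s * x i1 < x i0 → 0 < x i0 → S x = pt i0 1) := by
  filter_upwards [ae_eq_of_optimal (measurable_Tm _ _ _ _) (measurableSet_sites i0 i1 s)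
    (Tm_mem _ _ _ _) (measurable_wt i0 δ) (cost_fin h01 hδ hδ' hs) (Tm_min h01 hδ hδ' hs) hS]
    with x ⟨hx, hx2⟩
  rw [costT h01 hδ hδ' hs] at hx2
  have h3 := le_abs_self (x i0)
  have h4 := neg_abs_le (x i0)
  have h5 := cost_nonneg (i0 := i0) x
  have h6 : 0 ≤ ‖x‖ ^ 2 + 1 - 2 * (δ - s * x i1) := by
    have h : |x i1| ≤ ‖x‖ := by simpa using PiLp.norm_apply_le x i1
    have h' : x i1 ^ 2 ≤ ‖x‖ ^ 2 := by
      rw [← sq_abs]; exact pow_le_pow_left₀ (abs_nonneg _) h 2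
    nlinarith [sq_nonneg (x i1 + s)]
  constructor
  · intro h
    rw [max_eq_left h.le] at hx2
    rcases hx with hx | hx | hx
    · exact hx
    · rw [hx, costC] at hx2
      have hlt : ‖x‖ ^ 2 + 1 - 2 * (δ - s * x i1) < ‖x‖ ^ 2 + 1 - 2 * x i0 := by linarith
      exact absurd hx2 ((ENNReal.ofReal_lt_ofReal_iff_of_nonneg h6).2 hlt).ne
    · rw [hx, costA] at hx2
      have hlt : ‖x‖ ^ 2 + 1 - 2 * (δ - s * x i1) < ‖x‖ ^ 2 + 1 + 2 * x i0 := by linarith
      exact absurd hx2 ((ENNReal.ofReal_lt_ofReal_iff_of_nonneg h6).2 hlt).ne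
  · intro h h'
    rw [abs_of_pos h'] at hx2 h5
    rw [max_eq_right h.le] at hx2
    rcases hx with hx | hx | hx
    · rw [hx, costB h01 hδ hδ' hs] at hx2
      have hlt : ‖x‖ ^ 2 + 1 - 2 * x i0 < ‖x‖ ^ 2 + 1 - 2 * (δ - s * x i1) := by linarith
      exact absurd hx2 ((ENNReal.ofReal_lt_ofReal_iff_of_nonneg h5).2 hlt).ne
    · exact hx
    · rw [hx, costA] at hx2
      have hlt : ‖x‖ ^ 2 + 1 - 2 * x i0 < ‖x‖ ^ 2 + 1 + 2 * x i0 := by linarith
      exact absurd hx2 ((ENNReal.ofReal_lt_ofReal_iff_of_nonneg h5).2 hlt).ne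

end

end Crest.Agent.R82S
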