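import Crest.Agent.R82.SharpB

/-!
Lower bound for the maps, upper bound for the coupling cost, choice of the parameter.
-/

set_option autoImplicit false

open MeasureTheory Set Filter Topology
open scoped ENNReal NNReal
open Crest.AnalysisR.OT

namespace Crest.Agent.R82S

set_option linter.unusedSectionVars false

variable {d : ℕ}

section
variable {i0 i1 : Fin d} (h01 : i0 ≠ i1) {δ : ℝ} (hδ : 0 < δ) (hδ' : δ ≤ 1 / 4)
include h01 hδ hδ'

lemma lower_bound {S S' : EuclideanSpace ℝ (Fin d) → EuclideanSpace ℝ (Fin d)}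
    (hS : IsOptimalMap (uniformProbOn (cube d))
      ((uniformProbOn (cube d)).map (Tm i0 i1 δ δ)) S)
    (hS' : IsOptimalMap (uniformProbOn (cube d))
      ((uniformProbOn (cube d)).map (Tm i0 i1 δ (-δ))) S') :
    ENNReal.ofReal (δ / 16) ≤ ∫⁻ x, ‖S x - S' x‖ₑ ^ 2 ∂(uniformProbOn (cube d)) := by
  set lo : Fin d → ℝ := fun i => if i = i0 then 3 * δ / 4 else -1 with hlo
  set hi : Fin d → ℝ := fun i => if i = i0 then 5 * δ / 4 else if i = i1 then -(1 / 2) else 1
    with hhi
  set B : Set (EuclideanSpace ℝ (Fin d)) := {x | ∀ i, lo i ≤ x i ∧ x i ≤ hi i} with hB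
  have hBm : MeasurableSet B := measurableSet_box _ _
  have hvol : uniformProbOn (cube d) B = ENNReal.ofReal (δ / 16) := by
    rw [hB, rho_box lo hi]
    · have : ∀ i, ENNReal.ofReal ((hi i - lo i) / 2) =
          (if i = i0 then ENNReal.ofReal (δ / 4) else 1) *
          (if i = i1 then ENNReal.ofReal (1 / 4) else 1) := by
        intro i
        simp only [hlo, hhi]
        by_cases h0 : i = i0
        · have h1 : i ≠ i1 := h0 ▸ h01
          simp only [h0, if_true, h01, if_false, mul_one]
          congr 1; ring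
        · by_cases h1 : i = i1
          · simp only [h1, h01.symm, if_true, if_false, one_mul]
            congr 1; ring
          · simp only [h0, h1, if_false, mul_one]
            norm_num
      simp only [this]
      rw [Finset.prod_mul_distrib, Finset.prod_ite_eq', Finset.prod_ite_eq']
      simp only [Finset.mem_univ, if_true]
      rw [← ENNReal.ofReal_mul (by positivity)]
      congr 1; ring
    · intro i; simp only [hlo]; split_ifs <;> linarith
    · intro i; simp only [hhi]; split_ifs <;> linarith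
  rw [← hvol, ← lintegral_indicator_one hBm]
  refine lintegral_mono_ae ?_
  filter_upwards [opt_eq_B h01 hδ hδ' rfl hS, opt_eq_B h01 hδ hδ' (by ring) hS']
    with x hx hx'
  by_cases hxB : x ∈ B
  · rw [indicator_of_mem hxB]
    have h0 := hxB i0
    have h1 := hxB i1
    simp only [hlo, hhi, if_true, h01.symm, if_false] at h0 h1
    have hpos : 0 < x i0 := by linarith [h0.1]
    rw [hx.1 (by rw [abs_of_pos hpos]; nlinarith [h0.2, h1.2]),
      hx'.2 (by nlinarith [h0.1, h1.2]) hpos, enorm_sq, norm_sub_pt]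
    simp only [Pi.one_apply, PiLp.single_apply, h01, if_false]
    rw [← ENNReal.ofReal_one]
    refine ENNReal.ofReal_le_ofReal ?_
    nlinarith [sq_nonneg ‖pt i1 (-δ)‖]
  · rw [indicator_of_notMem hxB]; exact zero_le

/-- the coupling -/
noncomputable def cpl (i0 i1 : Fin d) (δ : ℝ) :
    Measure (EuclideanSpace ℝ (Fin d) × EuclideanSpace ℝ (Fin d)) :=
  (uniformProbOn (cube d)).map fun x => (Tm i0 i1 δ δ x, Tm i0 i1 δ (-δ) (refl i1 x))

omit h01 hδ hδ' in
lemma measurable_cpl_fun : Measurable fun x : EuclideanSpace ℝ (Fin d) =>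
    (Tm i0 i1 δ δ x, Tm i0 i1 δ (-δ) (refl i1 x)) :=
  (measurable_Tm _ _ _ _).prodMk ((measurable_Tm _ _ _ _).comp (refl i1).continuous.measurable)

lemma cpl_coupling : IsPairCoupling ((uniformProbOn (cube d)).map (Tm i0 i1 δ δ))
    ((uniformProbOn (cube d)).map (Tm i0 i1 δ (-δ))) (cpl i0 i1 δ) := by
  constructor
  · rw [cpl, Measure.map_map measurable_fst measurable_cpl_fun]; rfl
  · rw [cpl, Measure.map_map measurable_snd measurable_cpl_fun]
    conv_rhs => rw [← (refl_preserving i1).map_eq]
    rw [Measure.map_map (measurable_Tm _ _ _ _) (refl i1).continuous.measurable]; rfl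

lemma cpl_cost : quadCost (cpl i0 i1 δ) ≤ ENNReal.ofReal (8 * δ ^ 3) := by
  set lo : Fin d → ℝ := fun i => if i = i0 then -(2 * δ) else -1 with hlo
  set hi : Fin d → ℝ := fun i => if i = i0 then 2 * δ else 1 with hhi
  set B : Set (EuclideanSpace ℝ (Fin d)) := {x | ∀ i, lo i ≤ x i ∧ x i ≤ hi i} with hB
  have hBm : MeasurableSet B := measurableSet_box _ _
  have hvol : uniformProbOn (cube d) B = ENNReal.ofReal (2 * δ) := by
    rw [hB, rho_box lo hi]
    · have : ∀ i, ENNReal.ofReal ((hi i - lo i) / 2) =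
          (if i = i0 then ENNReal.ofReal (2 * δ) else 1) := by
        intro i
        simp only [hlo, hhi]
        by_cases h0 : i = i0
        · simp only [h0, if_true]
          congr 1; ring
        · simp only [h0, if_false]
          norm_num
      simp only [this]
      rw [Finset.prod_ite_eq']
      simp only [Finset.mem_univ, if_true]
    · intro i; simp only [hlo]; split_ifs <;> linarith
    · intro i; simp only [hhi]; split_ifs <;> linarith
  rw [quadCost, cpl, lintegral_map (by fun_prop) measurable_cpl_fun]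
  calc _ ≤ ∫⁻ x, B.indicator (fun _ => ENNReal.ofReal (4 * δ ^ 2)) x
        ∂(uniformProbOn (cube d)) := by
        refine lintegral_mono_ae ?_
        filter_upwards [ae_mem_cube] with x hx
        have e0 : refl i1 x i0 = x i0 := by rw [refl_apply, if_neg h01]
        have e1 : refl i1 x i1 = - x i1 := by rw [refl_apply, if_pos rfl]
        simp only [Tm, e0, e1, neg_mul_neg]
        by_cases hc : |x i0| ≤ δ - δ * x i1
        · have hxB : x ∈ B := by
            intro i
            simp only [hlo, hhi]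
            have h1 := abs_le.1 (hx i1)
            have h2 := abs_le.1 hc
            split_ifs with h
            · rw [h]; constructor <;> nlinarith [h1.1, h2.1, h2.2]
            · exact abs_le.1 (hx i)
          rw [indicator_of_mem hxB]
          simp only [hc, if_true]
          rw [enorm_sq, norm_sub_pt]
          refine ENNReal.ofReal_le_ofReal (le_of_eq ?_)
          simp [sq_abs]
          ring
        · simp [hc]
    _ = ENNReal.ofReal (8 * δ ^ 3) := by
        rw [lintegral_indicator_const hBm, hvol, ← ENNReal.ofReal_mul (by positivity)]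
        congr 1; ring

end

lemma exists_delta {α : ℝ} (hα : 1 / 3 < α) (C : ℝ) :
    ∃ δ : ℝ, 0 < δ ∧ δ ≤ 1 / 4 ∧ C * (8 * δ ^ 3) ^ α < δ / 16 := by
  have hβ : 0 < 3 * α - 1 := by linarith
  have h1 : Tendsto (fun δ : ℝ => C * 8 ^ α * δ ^ (3 * α - 1)) (𝓝[>] 0) (𝓝 0) := by
    have : Tendsto (fun δ : ℝ => δ ^ (3 * α - 1)) (𝓝 0) (𝓝 0) := by
      have := (Real.continuousAt_rpow_const 0 (3 * α - 1) (Or.inr hβ.le)).tendsto
      rwa [Real.zero_rpow hβ.ne'] at this
    simpa using (this.mono_left nhdsWithin_le_nhds).const_mul (C * 8 ^ α)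
  have h2 : ∀ᶠ δ : ℝ in 𝓝[>] 0, C * 8 ^ α * δ ^ (3 * α - 1) < 1 / 16 :=
    h1.eventually (gt_mem_nhds (by norm_num))
  have h3 : ∀ᶠ δ : ℝ in 𝓝[>] 0, δ < 1 / 4 :=
    mem_nhdsWithin_of_mem_nhds (gt_mem_nhds (by norm_num))
  obtain ⟨δ, h4, h5, h6⟩ := (h2.and (h3.and self_mem_nhdsWithin)).exists
  have hδ : 0 < δ := h6
  refine ⟨δ, hδ, h5.le, ?_⟩
  have e : (8 * δ ^ 3) ^ α = 8 ^ α * (δ ^ (3 * α - 1) * δ) := by
    rw [Real.mul_rpow (by norm_num) (by positivity), ← Real.rpow_natCast,
      ← Real.rpow_mul hδ.le, ← Real.rpow_add_one hδ.ne']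
    norm_num
  rw [e]
  nlinarith

end Crest.Agent.R82S
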